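import Vale.Agent.P030.H532.Pack

/-!
Elimination of the continuation passing style of the engine.
-/

namespace Vale.Agent.P030.H532

theorem force_eq (n : ℕ) (f : ℕ → Bool) : force n f = f n := by
  cases n <;> rfl

theorem brec (c : Bool) (x y : Bool) :
    (Bool.rec x y c : Bool) = if c = true then y else x := by cases c <;> rfl

theorem brec_false {c y : Bool} (h : (Bool.rec false y c : Bool) = true) :
    c = true ∧ y = true := by
  cases c
  · exact absurd h (by simp)
  · exact ⟨rfl, h⟩

theorem ble_iff {a b : ℕ} : Nat.ble a b = true ↔ a ≤ b := by rw [Nat.ble_eq]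

/-- specification of the logarithm -/
def LgSpec : Prop := ∀ (N : ℕ) (k : ℕ → Bool), lgW N k = true →
  ∃ l : ℕ, k l = true ∧ l < 2 ^ 40 ∧ 2 ^ 40 ≤ N ∧ |(l : ℝ) - 2 ^ 32 * Real.log N| ≤ 600

/-- the value at the centre -/
def Atom.N (a : Atom) (T : ℕ) : ℕ := (a.A * T + a.Bp) * T + a.C - a.Bn * T

/-- linear coefficient -/
def Atom.g (a : Atom) (T H : ℕ) : ℕ :=
  (4294967296 * (H * (2 * a.A * T + a.Bp)) + 8589934592 * a.N T - 4294967296 * (H * a.Bn)) / a.N T

/-- size -/
def Atom.e (a : Atom) (T H : ℕ) : ℕ := 4294967296 * (H * H * a.A) / a.N T + 1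

/-- second coefficient -/
def Atom.h (a : Atom) (T H : ℕ) : ℕ :=
  a.e T H + 8589934592 -
    (a.g T H * a.g T H + 73786976294838206464 - 17179869184 * a.g T H) / 2 ^ 33

/-- what one step has checked -/
structure StepOk (T H E : ℕ) (z : Atom × ℕ) : Prop where
  l_lt : z.2 < 2 ^ 40
  N_ge : 2 ^ 40 ≤ z.1.N T
  log : |(z.2 : ℝ) - 2 ^ 32 * Real.log (z.1.N T)| ≤ 600
  e_le : z.1.e T H ≤ E

theorem stepF_spec (hlg : LgSpec) {T H E : ℕ} {a : Atom} {P Q S R : ℕ}
    {ih : ℕ → ℕ → ℕ → ℕ → Bool} (h : stepF T H E a P Q S R ih = true) :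
    ∃ l, StepOk T H E (a, l) ∧
      ih (P + a.V * l) (Q + a.V * a.g T H) (S + a.V * a.h T H) (R + a.D * a.e T H) = true := by
  obtain ⟨A, Bp, Bn, C, V, D⟩ := a
  have h1 : force ((A * T + Bp) * T + C - Bn * T) (fun N =>
      lgW N fun l =>
      force ((4294967296 * (H * (2 * A * T + Bp)) + 8589934592 * N
        - 4294967296 * (H * Bn)) / N) fun g =>
      force (4294967296 * (H * H * A) / N + 1) fun e =>
      Bool.rec false (
        ih (P + V * l) (Q + V * g)
          (S + V * (e + 8589934592 -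
            Nat.shiftRight (g * g + 73786976294838206464 - 17179869184 * g) 33))
          (R + D * e)) (Nat.ble e E)) = true := h
  rw [force_eq] at h1
  obtain ⟨l, hk, hl, hN, hlog⟩ := hlg _ _ h1
  rw [force_eq, force_eq] at hk
  obtain ⟨he, hih⟩ := brec_false hk
  refine ⟨l, ⟨hl, hN, hlog, ble_iff.1 he⟩, ?_⟩
  have h2 : ∀ x, Nat.shiftRight x 33 = x / 2 ^ 33 := fun x => Nat.shiftRight_eq_div_pow x 33
  rw [h2] at hih
  exact hih

theorem run_spec (hlg : LgSpec) {T H E : ℕ} {fin : ℕ → ℕ → ℕ → ℕ → Bool} (atoms : List Atom) :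
    ∀ P Q S R : ℕ, run T H E fin atoms P Q S R = true →
    ∃ zs : List (Atom × ℕ), zs.map Prod.fst = atoms ∧ (∀ z ∈ zs, StepOk T H E z) ∧
      fin (P + (zs.map fun z => z.1.V * z.2).sum) (Q + (zs.map fun z => z.1.V * z.1.g T H).sum)
        (S + (zs.map fun z => z.1.V * z.1.h T H).sum)
        (R + (zs.map fun z => z.1.D * z.1.e T H).sum) = true := by
  induction atoms with
  | nil =>
    intro P Q S R h
    exact ⟨[], rfl, fun z hz => absurd hz List.not_mem_nil, h⟩
  | cons a atoms ih =>
    intro P Q S R h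
    have h1 : stepF T H E a P Q S R (run T H E fin atoms) = true := h
    obtain ⟨l, hok, h2⟩ := stepF_spec hlg h1
    obtain ⟨zs, hz1, hz2, hz3⟩ := ih _ _ _ _ h2
    refine ⟨(a, l) :: zs, by rw [List.map_cons, hz1], ?_, ?_⟩
    · intro z hz
      rcases List.mem_cons.1 hz with rfl | hz
      · exact hok
      · exact hz2 z hz
    · simp only [List.map_cons, List.sum_cons]
      rw [← add_assoc, ← add_assoc, ← add_assoc, ← add_assoc]
      exact hz3

theorem crit_spec {a t p n : ℕ} (h : crit a t p n = true) :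
    t + n ≤ a + p ∧ (2 * p ≤ t ∨ t * t ≤ 4 * a * p) := by
  have h1 : (Bool.rec false (Bool.rec (Nat.ble (t * t) (4 * a * p)) true
    (Nat.ble (2 * p) t)) (Nat.ble (t + n) (a + p)) : Bool) = true := h
  obtain ⟨h2, h3⟩ := brec_false h1
  refine ⟨ble_iff.1 h2, ?_⟩
  rw [brec] at h3
  by_cases h4 : Nat.ble (2 * p) t = true
  · exact Or.inl (ble_iff.1 h4)
  · rw [if_neg h4] at h3
    exact Or.inr (ble_iff.1 h3)

theorem digit_eq (P b : ℕ) : digit P (96 * b) = fld P b := by
  change Nat.mod (Nat.shiftRight P (96 * b)) 79228162514264337593543950336 = _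
  rw [show Nat.shiftRight P (96 * b) = P / 2 ^ (96 * b) from Nat.shiftRight_eq_div_pow _ _]
  rfl

/-- what the comparison has checked -/
def CmpOk (P Q S R si sj al be : ℕ) : Prop :=
  digit P si + al + R ≤ digit P sj + be ∧
  crit (digit P sj + be - (digit P si + al + R))
    (digit Q si - digit Q sj + (digit Q sj - digit Q si)) (digit S sj - digit S si)
    (digit S si - digit S sj) = true

theorem fin1_spec {P Q S R si sj al be : ℕ} {ih : Bool} (h : fin1 P Q S R si sj al be ih = true) :
    CmpOk P Q S R si sj al be ∧ ih = true := by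
  simp only [fin1, force_eq] at h
  obtain ⟨h1, h2⟩ := brec_false h
  obtain ⟨h3, h4⟩ := brec_false h2
  exact ⟨⟨ble_iff.1 h1, h3⟩, h4⟩

theorem finL_spec {P Q S R : ℕ} {l : List Cmp} (h : finL P Q S R l = true) :
    ∀ c ∈ l, CmpOk P Q S R c.si c.sj c.al c.be := by
  induction l with
  | nil => intro c hc; exact absurd hc List.not_mem_nil
  | cons c l ih =>
    obtain ⟨si, sj, al, be⟩ := c
    have h1 : fin1 P Q S R si sj al be (finL P Q S R l) = true := h
    obtain ⟨h2, h3⟩ := fin1_spec h1
    intro c' hc'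
    rcases List.mem_cons.1 hc' with rfl | hc'
    · exact h2
    · exact ih h3 c' hc'

theorem finF_spec {P Q S R m : ℕ} {l : List Cmp} (h : finF l m P Q S R = true) :
    ∀ c ∈ l, CmpOk P Q S (2 * R / (3 * (m + 1)) + 1) c.si c.sj c.al c.be := by
  simp only [finF, force_eq] at h
  exact finL_spec h

/-- total length of the cells -/
def len (cls : List Cell) : ℕ := (cls.map fun c => 2 * c.H).sum

theorem cells_spec {atoms : List Atom} {cmps : List Cmp} (cls : List Cell) :
    ∀ T : ℕ, cells atoms cmps cls T = true → ∀ t : ℝ, (T : ℝ) ≤ t → t ≤ T + len cls →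
    (∃ T0 H m : ℕ, |t - T0| ≤ H ∧
      run T0 H (4294967296 / ((m + 2) * (m + 2))) (finF cmps m) atoms 0 0 0 0 = true) ∨ cls = [] := by
  induction cls with
  | nil => intro T _ t _ _; exact Or.inr rfl
  | cons c cls ih =>
    obtain ⟨H, m⟩ := c
    intro T h t h0 h1
    left
    have h2 : force (T + H) (fun T0 => force (4294967296 / ((m + 2) * (m + 2))) fun E =>
      Bool.rec false (force (T0 + H) (cells atoms cmps cls))
        (run T0 H E (finF cmps m) atoms 0 0 0 0)) = true := h
    simp only [force_eq] at h2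
    obtain ⟨h3, h4⟩ := brec_false h2
    by_cases ht : t ≤ ((T + H : ℕ) : ℝ) + H
    · refine ⟨T + H, H, m, ?_, h3⟩
      push_cast at ht ⊢
      rw [abs_le]
      constructor <;> linarith
    · have hlen : len (⟨H, m⟩ :: cls) = 2 * H + len cls := rfl
      rw [hlen] at h1
      push_cast at ht h1
      rcases ih (T + H + H) h4 t (by push_cast; linarith) (by push_cast; linarith) with h5 | h5
      · exact h5
      · subst h5
        have : len [] = 0 := rfl
        rw [this] at h1
        push_cast at h1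
        exact absurd h1 (by linarith)

end Vale.Agent.P030.H532
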