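import Mathlib
import Vale.Agent.P030.H532.Spec

/-!
# P030: the logarithm of the wall engine (range up to `2^296`)

Adapted from helper863's proof for the range up to `2^168` (one more level).
-/

open Real Finset

namespace Vale.Agent.P030.H532.Lw

open Vale.Agent.P030.H532

/-- the area hyperbolic tangent series with a sharp tail -/
theorem atanh_bounds {x : ℝ} (hx0 : 0 ≤ x) (hx : x < 1) (n : ℕ) :
    ∑ j ∈ range n, 2 * (1 / (2 * (j : ℝ) + 1)) * x ^ (2 * j + 1) ≤ log (1 + x) - log (1 - x) ∧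
    log (1 + x) - log (1 - x) ≤
      ∑ j ∈ range n, 2 * (1 / (2 * (j : ℝ) + 1)) * x ^ (2 * j + 1) +
        2 * (1 / (2 * (n : ℝ) + 1)) * x ^ (2 * n + 1) * (1 - x ^ 2)⁻¹ := by
  have habs : |x| < 1 := by rw [abs_of_nonneg hx0]; linarith
  have h := hasSum_log_sub_log_of_abs_lt_one habs
  set f : ℕ → ℝ := fun k => 2 * (1 / (2 * (k : ℝ) + 1)) * x ^ (2 * k + 1) with hf
  have hf0 : ∀ k, 0 ≤ f k := fun k => by positivity
  have hsplit := h.summable.sum_add_tsum_nat_add n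
  rw [h.tsum_eq] at hsplit
  have htail0 : 0 ≤ ∑' i, f (i + n) := tsum_nonneg fun i => hf0 _
  have hx2 : x ^ 2 < 1 := by nlinarith
  have hg : HasSum (fun i : ℕ => 2 * (1 / (2 * (n : ℝ) + 1)) * x ^ (2 * n + 1) * (x ^ 2) ^ i)
      (2 * (1 / (2 * (n : ℝ) + 1)) * x ^ (2 * n + 1) * (1 - x ^ 2)⁻¹) :=
    (hasSum_geometric_of_lt_one (by positivity) hx2).mul_left _
  have htail : ∑' i, f (i + n) ≤
      2 * (1 / (2 * (n : ℝ) + 1)) * x ^ (2 * n + 1) * (1 - x ^ 2)⁻¹ := by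
    rw [← hg.tsum_eq]
    refine Summable.tsum_le_tsum (fun i => ?_) ?_ hg.summable
    · have e1 : x ^ (2 * (i + n) + 1) = x ^ (2 * n + 1) * (x ^ 2) ^ i := by
        rw [← pow_mul, ← pow_add]; ring_nf
      have e2 : (1 : ℝ) / (2 * ((i + n : ℕ) : ℝ) + 1) ≤ 1 / (2 * (n : ℝ) + 1) := by
        apply one_div_le_one_div_of_le (by positivity)
        push_cast
        have : (0 : ℝ) ≤ (i : ℝ) := Nat.cast_nonneg _
        linarith
      simp only [hf]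
      rw [e1]
      have h3 : 0 ≤ x ^ (2 * n + 1) * (x ^ 2) ^ i := by positivity
      have := mul_le_mul_of_nonneg_right e2 h3
      nlinarith
    · exact (summable_nat_add_iff n).2 h.summable
  constructor
  · linarith
  · linarith

theorem force_eq (n : ℕ) (f : ℕ → Bool) : force n f = f n := by
  cases n <;> rfl

/-- the invariant of the normalisation -/
def Inv (N0 N e : ℕ) : Prop := N * 2 ^ e ≤ N0 ∧ N0 < (N + 1) * 2 ^ e

theorem Inv.shift {N0 N e : ℕ} (h : Inv N0 N e) (s : ℕ) : Inv N0 (N / 2 ^ s) (e + s) := by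
  have hpos : 0 < 2 ^ s := by positivity
  have h1 := Nat.div_mul_le_self N (2 ^ s)
  have h2 : N + 1 ≤ (N / 2 ^ s + 1) * 2 ^ s := by
    have := Nat.lt_div_mul_add (a := N) hpos
    rw [add_mul, one_mul]; exact this
  constructor
  · calc N / 2 ^ s * 2 ^ (e + s) = N / 2 ^ s * 2 ^ s * 2 ^ e := by rw [pow_add]; ring
      _ ≤ N * 2 ^ e := Nat.mul_le_mul_right _ h1
      _ ≤ N0 := h.1
  · calc N0 < (N + 1) * 2 ^ e := h.2
      _ ≤ (N / 2 ^ s + 1) * 2 ^ s * 2 ^ e := Nat.mul_le_mul_right _ h2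
      _ = (N / 2 ^ s + 1) * 2 ^ (e + s) := by rw [pow_add]; ring

theorem lvl_spec {c s N e N0 : ℕ} {k : ℕ → ℕ → Bool} (h : lvl c s N e k = true)
    (hI : Inv N0 N e) : ∃ N' e', k N' e' = true ∧ Inv N0 N' e' ∧ e' ≤ e + s := by
  unfold lvl at h
  cases hc : Nat.ble c N
  · rw [hc] at h
    exact ⟨N, e, h, hI, Nat.le_add_right _ _⟩
  · rw [hc] at h
    simp only [force_eq] at h
    refine ⟨N / 2 ^ s, e + s, ?_, hI.shift s, le_rfl⟩
    have e1 : Nat.shiftRight N s = N / 2 ^ s := by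
      change N >>> s = _
      rw [Nat.shiftRight_eq_div_pow]
    rw [← e1]
    exact h

theorem div_bounds {p q : ℕ} (hq : 0 < q) :
    ((p / q : ℕ) : ℝ) ≤ (p : ℝ) / q ∧ (p : ℝ) / q < ((p / q : ℕ) : ℝ) + 1 := by
  have hq' : (0 : ℝ) < q := by exact_mod_cast hq
  constructor
  · rw [le_div_iff₀ hq']
    exact_mod_cast Nat.div_mul_le_self p q
  · rw [div_lt_iff₀ hq']
    have := Nat.lt_div_mul_add (a := p) hq
    have h2 : p < (p / q + 1) * q := by rw [add_mul, one_mul]; exact this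
    exact_mod_cast h2

/-- one Horner step with rounding -/
theorem horner {w p c : ℕ} {W P C : ℝ} (hw1 : (w : ℝ) ≤ W) (hw2 : W ≤ w + 2)
    (hW : W ≤ 2 ^ 32 / 9) (hp : |(p : ℝ) - P| ≤ 4) (hP0 : 0 ≤ P) (hP : P ≤ 2 ^ 32 * (2 / 5))
    (hc : |(c : ℝ) - C| ≤ 1) :
    |((c + w * p / 2 ^ 32 : ℕ) : ℝ) - (C + W * P / 2 ^ 32)| ≤ 4 := by
  have hw0 : (0 : ℝ) ≤ w := Nat.cast_nonneg _
  have hd := div_bounds (p := w * p) (q := 2 ^ 32) (by norm_num)
  push_cast at hd ⊢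
  rw [abs_le] at hp hc ⊢
  have hW' : (w : ℝ) ≤ 2 ^ 32 / 9 := hw1.trans hW
  have k1 : (w : ℝ) * p ≤ W * P + (2 ^ 32 / 9) * 4 := by
    have a1 : (w : ℝ) * (p - P) ≤ (2 ^ 32 / 9) * 4 := by
      rcases le_total 0 ((p : ℝ) - P) with h | h
      · exact mul_le_mul hW' hp.2 h (by norm_num)
      · have : (w : ℝ) * (p - P) ≤ 0 := mul_nonpos_of_nonneg_of_nonpos hw0 h
        norm_num at this ⊢
        linarith
    have a2 : (w : ℝ) * P ≤ W * P := mul_le_mul_of_nonneg_right hw1 hP0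
    nlinarith
  have k2 : W * P - (2 ^ 32 / 9) * 4 - 2 * (2 ^ 32 * (2 / 5)) ≤ (w : ℝ) * p := by
    have a1 : -((2 ^ 32 / 9) * 4) ≤ (w : ℝ) * (p - P) := by
      have : (w : ℝ) * (P - p) ≤ (2 ^ 32 / 9) * 4 := by
        rcases le_total 0 (P - (p : ℝ)) with h | h
        · exact mul_le_mul hW' (by linarith [hp.1]) h (by norm_num)
        · have : (w : ℝ) * (P - p) ≤ 0 := mul_nonpos_of_nonneg_of_nonpos hw0 h
          norm_num at this ⊢
          linarith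
      nlinarith
    have a2 : (W - w) * P ≤ 2 * (2 ^ 32 * (2 / 5)) :=
      mul_le_mul (by linarith) hP hP0 (by norm_num)
    nlinarith
  norm_num at hd k1 k2 ⊢
  constructor
  · linarith [hd.2, hc.1]
  · linarith [hd.1, hc.2]

theorem log_two_bounds : (2977044471 : ℝ) ≤ 2 ^ 32 * log 2 ∧ 2 ^ 32 * log 2 ≤ 2977044472 ∧
    (119081778872 : ℝ) ≤ 2 ^ 32 * (40 * log 2) ∧ 2 ^ 32 * (40 * log 2) ≤ 119081778873 := by
  have h := atanh_bounds (x := 1 / 3) (by norm_num) (by norm_num) 16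
  have hlog : log (1 + 1 / 3) - log (1 - 1 / 3) = log 2 := by
    rw [← log_div (by norm_num) (by norm_num)]; norm_num
  rw [hlog] at h
  simp only [Finset.sum_range_succ, Finset.sum_range_zero] at h
  norm_num at h
  refine ⟨?_, ?_, ?_, ?_⟩
  all_goals norm_num
  all_goals linarith [h.1, h.2]

/-- the Horner polynomial of the machine -/
def pol (w : ℕ) : ℕ :=
  4294967296 + w * (1431655765 + w * (858993459 + w * (613566757 +
      w * (477218588 + w * 390451572 / 2 ^ 32) / 2 ^ 32) / 2 ^ 32) / 2 ^ 32) / 2 ^ 32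

noncomputable def polR (W : ℝ) : ℝ :=
  2 ^ 32 + W * (2 ^ 32 / 3 + W * (2 ^ 32 / 5 + W * (2 ^ 32 / 7 + W * (2 ^ 32 / 9 +
    W * (2 ^ 32 / 11) / 2 ^ 32) / 2 ^ 32) / 2 ^ 32) / 2 ^ 32) / 2 ^ 32

theorem step_bd {W P : ℝ} (hW0 : 0 ≤ W) (hW1 : W ≤ 2 ^ 32 / 9) (h0 : 0 ≤ P) :
    0 ≤ W * P / 2 ^ 32 ∧ W * P / 2 ^ 32 ≤ P / 9 := by
  constructor
  · positivity
  · rw [div_le_iff₀ (by norm_num)]
    have := mul_le_mul_of_nonneg_right hW1 h0
    linarith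

theorem pol_spec {w : ℕ} {W : ℝ} (hw1 : (w : ℝ) ≤ W) (hw2 : W ≤ w + 2) (hW0 : 0 ≤ W)
    (hW1 : W ≤ 2 ^ 32 / 9) :
    |(pol w : ℝ) - polR W| ≤ 4 ∧ 0 ≤ polR W ∧ polR W ≤ 2 ^ 32 * (11 / 10) := by
  unfold pol polR
  obtain ⟨P5, hP5⟩ : ∃ P : ℝ, 2 ^ 32 / 11 = P := ⟨_, rfl⟩
  rw [hP5]
  obtain ⟨P4, hP4⟩ : ∃ P : ℝ, 2 ^ 32 / 9 + W * P5 / 2 ^ 32 = P := ⟨_, rfl⟩
  rw [hP4]
  obtain ⟨P3, hP3⟩ : ∃ P : ℝ, 2 ^ 32 / 7 + W * P4 / 2 ^ 32 = P := ⟨_, rfl⟩
  rw [hP3]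
  obtain ⟨P2, hP2⟩ : ∃ P : ℝ, 2 ^ 32 / 5 + W * P3 / 2 ^ 32 = P := ⟨_, rfl⟩
  rw [hP2]
  obtain ⟨P1, hP1⟩ : ∃ P : ℝ, 2 ^ 32 / 3 + W * P2 / 2 ^ 32 = P := ⟨_, rfl⟩
  rw [hP1]
  have b5 : 0 ≤ P5 ∧ P5 ≤ 2 ^ 32 * (1 / 11) := by rw [← hP5]; constructor <;> norm_num
  have b4 : 0 ≤ P4 ∧ P4 ≤ 2 ^ 32 * (1 / 7) := by
    have := step_bd hW0 hW1 b5.1
    rw [← hP4]; constructor
    · linarith [this.1]
    · linarith [this.2, b5.2]
  have b3 : 0 ≤ P3 ∧ P3 ≤ 2 ^ 32 * (1 / 6) := by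
    have := step_bd hW0 hW1 b4.1
    rw [← hP3]; constructor
    · linarith [this.1]
    · linarith [this.2, b4.2]
  have b2 : 0 ≤ P2 ∧ P2 ≤ 2 ^ 32 * (1 / 4) := by
    have := step_bd hW0 hW1 b3.1
    rw [← hP2]; constructor
    · linarith [this.1]
    · linarith [this.2, b3.2]
  have b1 : 0 ≤ P1 ∧ P1 ≤ 2 ^ 32 * (2 / 5) := by
    have := step_bd hW0 hW1 b2.1
    rw [← hP1]; constructor
    · linarith [this.1]
    · linarith [this.2, b2.2]
  have b0 := step_bd hW0 hW1 b1.1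
  obtain ⟨p5, hp5⟩ : ∃ p : ℕ, 390451572 = p := ⟨_, rfl⟩
  rw [hp5]
  have q5 : |(p5 : ℝ) - P5| ≤ 4 := by
    rw [← hP5, ← hp5, abs_le]; constructor <;> norm_num
  obtain ⟨p4, hp4⟩ : ∃ p : ℕ, 477218588 + w * p5 / 2 ^ 32 = p := ⟨_, rfl⟩
  have q4 := horner (c := 477218588) (C := 2 ^ 32 / 9) hw1 hw2 hW1 q5 b5.1
    (by linarith [b5.2]) (by rw [abs_le]; constructor <;> norm_num)
  rw [hp4, hP4] at q4
  rw [hp4]
  obtain ⟨p3, hp3⟩ : ∃ p : ℕ, 613566757 + w * p4 / 2 ^ 32 = p := ⟨_, rfl⟩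
  have q3 := horner (c := 613566757) (C := 2 ^ 32 / 7) hw1 hw2 hW1 q4 b4.1
    (by linarith [b4.2]) (by rw [abs_le]; constructor <;> norm_num)
  rw [hp3, hP3] at q3
  rw [hp3]
  obtain ⟨p2, hp2⟩ : ∃ p : ℕ, 858993459 + w * p3 / 2 ^ 32 = p := ⟨_, rfl⟩
  have q2 := horner (c := 858993459) (C := 2 ^ 32 / 5) hw1 hw2 hW1 q3 b3.1
    (by linarith [b3.2]) (by rw [abs_le]; constructor <;> norm_num)
  rw [hp2, hP2] at q2
  rw [hp2]
  obtain ⟨p1, hp1⟩ : ∃ p : ℕ, 1431655765 + w * p2 / 2 ^ 32 = p := ⟨_, rfl⟩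
  have q1 := horner (c := 1431655765) (C := 2 ^ 32 / 3) hw1 hw2 hW1 q2 b2.1
    (by linarith [b2.2]) (by rw [abs_le]; constructor <;> norm_num)
  rw [hp1, hP1] at q1
  rw [hp1]
  have q0 := horner (c := 4294967296) (C := 2 ^ 32) hw1 hw2 hW1 q1 b1.1
    (by linarith [b1.2]) (by rw [abs_le]; constructor <;> norm_num)
  refine ⟨q0, ?_, ?_⟩
  · linarith [b0.1]
  · linarith [b0.2, b1.2]

theorem polR_eq (X : ℝ) : 2 * X * polR (X * X / 2 ^ 32) / 2 ^ 32 =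
    2 ^ 32 * (2 * (X / 2 ^ 32) + 2 / 3 * (X / 2 ^ 32) ^ 3 + 2 / 5 * (X / 2 ^ 32) ^ 5 +
      2 / 7 * (X / 2 ^ 32) ^ 7 + 2 / 9 * (X / 2 ^ 32) ^ 9 + 2 / 11 * (X / 2 ^ 32) ^ 11) := by
  unfold polR
  ring

/-- the product step of the machine -/
theorem prod_spec {z w : ℕ} {X W : ℝ} (hz1 : (z : ℝ) ≤ X) (hz2 : X < z + 1)
    (hX1 : X ≤ 2 ^ 32 / 3) (hp : |(pol w : ℝ) - polR W| ≤ 4) (hP0 : 0 ≤ polR W)
    (hP1 : polR W ≤ 2 ^ 32 * (11 / 10)) :
    2 * X * polR W / 2 ^ 32 - 6 ≤ ((2 * z * pol w / 2 ^ 32 : ℕ) : ℝ) ∧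
      ((2 * z * pol w / 2 ^ 32 : ℕ) : ℝ) ≤ 2 * X * polR W / 2 ^ 32 + 3 := by
  have hz0 : (0 : ℝ) ≤ z := Nat.cast_nonneg _
  have hd := div_bounds (p := 2 * z * pol w) (q := 2 ^ 32) (by norm_num)
  obtain ⟨P, hP⟩ : ∃ P : ℝ, polR W = P := ⟨_, rfl⟩
  obtain ⟨p, hp'⟩ : ∃ p : ℕ, pol w = p := ⟨_, rfl⟩
  rw [hP] at hp hP0 hP1 ⊢
  rw [hp'] at hp hd ⊢
  obtain ⟨r, hr⟩ : ∃ r : ℕ, 2 * z * p / 2 ^ 32 = r := ⟨_, rfl⟩
  rw [hr] at hd ⊢
  push_cast at hd
  rw [abs_le] at hp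
  have hz3 : (z : ℝ) ≤ 2 ^ 32 / 3 := hz1.trans hX1
  have k1 : (z : ℝ) * (p - P) ≤ 2 ^ 32 / 3 * 4 := by
    rcases le_total 0 ((p : ℝ) - P) with h | h
    · exact mul_le_mul hz3 hp.2 h (by norm_num)
    · have : (z : ℝ) * (p - P) ≤ 0 := mul_nonpos_of_nonneg_of_nonpos hz0 h
      norm_num at this ⊢
      linarith
  have k2 : (z : ℝ) * (P - p) ≤ 2 ^ 32 / 3 * 4 := by
    rcases le_total 0 (P - (p : ℝ)) with h | h
    · exact mul_le_mul hz3 (by linarith [hp.1]) h (by norm_num)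
    · have : (z : ℝ) * (P - p) ≤ 0 := mul_nonpos_of_nonneg_of_nonpos hz0 h
      norm_num at this ⊢
      linarith
  have k3 : (z : ℝ) * P ≤ X * P := mul_le_mul_of_nonneg_right hz1 hP0
  have k4 : (X - z) * P ≤ 1 * (2 ^ 32 * (11 / 10)) :=
    mul_le_mul (by linarith) hP1 hP0 (by norm_num)
  have e1 : 2 * X * P / 2 ^ 32 - 2 * (z : ℝ) * p / 2 ^ 32 =
      2 * ((X - z) * P + z * (P - p)) / 2 ^ 32 := by ring
  have u1 : 2 * ((X - z) * P + z * (P - p)) / 2 ^ 32 ≤ 5 := by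
    rw [div_le_iff₀ (by norm_num)]
    norm_num at k2 k4 ⊢
    linarith
  have u2 : -3 ≤ 2 * ((X - z) * P + z * (P - p)) / 2 ^ 32 := by
    rw [le_div_iff₀ (by norm_num)]
    norm_num at k1 k3 ⊢
    nlinarith
  constructor
  · linarith [hd.2]
  · linarith [hd.1]

/-- the size of the tail -/
theorem tail_le {x : ℝ} (hx0 : 0 ≤ x) (hx1 : x ≤ 1 / 3) :
    2 ^ 32 * (2 * (1 / (2 * ((6 : ℕ) : ℝ) + 1)) * x ^ (2 * 6 + 1) * (1 - x ^ 2)⁻¹) ≤ 467 := by
  have h1 : x ^ 13 ≤ (1 / 3) ^ 13 := pow_le_pow_left₀ hx0 hx1 13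
  have h2 : x ^ 2 ≤ (1 / 3) ^ 2 := pow_le_pow_left₀ hx0 hx1 2
  have h3 : (1 - x ^ 2)⁻¹ ≤ 9 / 8 := by
    rw [inv_le_comm₀ (by nlinarith) (by norm_num)]
    norm_num at h2 ⊢
    linarith
  have h4 : x ^ 13 * (1 - x ^ 2)⁻¹ ≤ (1 / 3) ^ 13 * (9 / 8) :=
    mul_le_mul h1 h3 (inv_nonneg.2 (by nlinarith)) (by positivity)
  have h5 : 2 ^ 32 * (2 * (1 / (2 * ((6 : ℕ) : ℝ) + 1)) * x ^ (2 * 6 + 1) * (1 - x ^ 2)⁻¹) =
      2 ^ 32 * 2 / 13 * (x ^ 13 * (1 - x ^ 2)⁻¹) := by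
    norm_num
    ring
  rw [h5]
  norm_num at h4 ⊢
  linarith

/-- the sum of the pieces -/
theorem comb_spec {r e : ℕ} {S L T : ℝ} (r1 : 2 ^ 32 * S - 6 ≤ (r : ℝ))
    (r2 : (r : ℝ) ≤ 2 ^ 32 * S + 3) (h1 : S ≤ L - 40 * log 2) (h2 : L - 40 * log 2 ≤ S + T)
    (hT : 2 ^ 32 * T ≤ 467) (he : e ≤ 255) :
    |((119081778873 + e * 2977044472 + r : ℕ) : ℝ) - 2 ^ 32 * (L + e * log 2)| ≤ 590 := by
  obtain ⟨l1, l2, l3, l4⟩ := log_two_bounds
  have he0 : (0 : ℝ) ≤ e := Nat.cast_nonneg _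
  have he1 : (e : ℝ) ≤ 255 := by exact_mod_cast he
  have m1 := mul_le_mul_of_nonneg_left l1 he0
  have m2 := mul_le_mul_of_nonneg_left l2 he0
  rw [abs_le]
  push_cast
  have e1 : (2 : ℝ) ^ 32 * (L + e * log 2) =
      2 ^ 32 * (L - 40 * log 2) + 2 ^ 32 * (40 * log 2) + e * (2 ^ 32 * log 2) := by ring
  rw [e1]
  constructor
  · linarith
  · linarith

/-- the series part of the machine -/
theorem lgT_spec {M e : ℕ} {k : ℕ → Bool} (h : lgT M e k = true) (h1 : 2 ^ 40 ≤ M)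
    (h2 : M < 2 ^ 41) (he : e ≤ 255) :
    ∃ l : ℕ, k l = true ∧ |(l : ℝ) - 2 ^ 32 * (log M + e * log 2)| ≤ 590 := by
  unfold lgT at h
  simp only [force_eq] at h
  change k (119081778873 + e * 2977044472 +
    (2 * ((M - 1099511627776) * 4294967296 / (M + 1099511627776)) *
    (4294967296 + (((M - 1099511627776) * 4294967296 / (M + 1099511627776) *
      ((M - 1099511627776) * 4294967296 / (M + 1099511627776))) >>> 32 *
    (1431655765 + (((M - 1099511627776) * 4294967296 / (M + 1099511627776) *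
      ((M - 1099511627776) * 4294967296 / (M + 1099511627776))) >>> 32 *
    (858993459 + (((M - 1099511627776) * 4294967296 / (M + 1099511627776) *
      ((M - 1099511627776) * 4294967296 / (M + 1099511627776))) >>> 32 *
    (613566757 + (((M - 1099511627776) * 4294967296 / (M + 1099511627776) *
      ((M - 1099511627776) * 4294967296 / (M + 1099511627776))) >>> 32 *
    (477218588 + (((M - 1099511627776) * 4294967296 / (M + 1099511627776) *
      ((M - 1099511627776) * 4294967296 / (M + 1099511627776))) >>> 32 *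
      390451572) >>> 32)) >>> 32)) >>> 32)) >>> 32)) >>> 32)) >>> 32) = true at h
  obtain ⟨z, hz⟩ : ∃ z : ℕ, (M - 1099511627776) * 4294967296 / (M + 1099511627776) = z :=
    ⟨_, rfl⟩
  rw [hz] at h
  simp only [Nat.shiftRight_eq_div_pow] at h
  obtain ⟨w, hw⟩ : ∃ w : ℕ, z * z / 2 ^ 32 = w := ⟨_, rfl⟩
  rw [hw] at h
  refine ⟨_, h, ?_⟩
  -- real quantities
  have hM0 : (2 : ℝ) ^ 40 ≤ M := by exact_mod_cast h1
  have hM1 : (M : ℝ) < 2 ^ 41 := by exact_mod_cast h2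
  set x : ℝ := ((M : ℝ) - 2 ^ 40) / (M + 2 ^ 40) with hx
  have hMp : (0 : ℝ) < M + 2 ^ 40 := by positivity
  have hx0 : 0 ≤ x := div_nonneg (by linarith) hMp.le
  have hx1 : x ≤ 1 / 3 := by
    rw [hx, div_le_div_iff₀ hMp (by norm_num)]
    linarith
  have hser := atanh_bounds hx0 (by linarith) 6
  have e1 : log (1 + x) - log (1 - x) = log M - 40 * log 2 := by
    have a1 : (1 : ℝ) + x = 2 * M / (M + 2 ^ 40) := by rw [hx]; field_simp; ring
    have a2 : (1 : ℝ) - x = 2 * 2 ^ 40 / (M + 2 ^ 40) := by rw [hx]; field_simp; ring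
    have hMpos : (0 : ℝ) < M := lt_of_lt_of_le (by positivity) hM0
    rw [a1, a2, log_div (by positivity) hMp.ne', log_div (by positivity) hMp.ne',
      log_mul (by norm_num) hMpos.ne', log_mul (by norm_num) (by positivity), log_pow]
    push_cast
    ring
  rw [e1] at hser
  have htail := tail_le hx0 hx1
  set X : ℝ := 2 ^ 32 * x with hX
  have hX0 : 0 ≤ X := by positivity
  have hX1 : X ≤ 2 ^ 32 / 3 := by
    have := mul_le_mul_of_nonneg_left hx1 (by norm_num : (0 : ℝ) ≤ 2 ^ 32)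
    rw [hX]; linarith
  have hzb := div_bounds (p := (M - 1099511627776) * 4294967296) (q := M + 1099511627776)
    (by omega)
  rw [hz] at hzb
  have e2 : (((M - 1099511627776) * 4294967296 : ℕ) : ℝ) / ((M + 1099511627776 : ℕ) : ℝ) = X := by
    have hle : 1099511627776 ≤ M := by norm_num at h1; exact h1
    have c1 : ((M - 1099511627776 : ℕ) : ℝ) = M - 2 ^ 40 := by
      rw [Nat.cast_sub hle]; norm_num
    have c2 : ((M + 1099511627776 : ℕ) : ℝ) = M + 2 ^ 40 := by push_cast; norm_num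
    rw [Nat.cast_mul, c1, c2, hX, hx, show ((4294967296 : ℕ) : ℝ) = 2 ^ 32 by norm_num]
    ring
  rw [e2] at hzb
  have hz0 : (0 : ℝ) ≤ z := Nat.cast_nonneg _
  set W : ℝ := X * X / 2 ^ 32 with hW
  have hwb := div_bounds (p := z * z) (q := 2 ^ 32) (by norm_num)
  rw [hw] at hwb
  have hw1 : (w : ℝ) ≤ W := by
    refine hwb.1.trans ?_
    have a1 : ((z * z : ℕ) : ℝ) ≤ X * X := by
      push_cast; exact mul_le_mul hzb.1 hzb.1 hz0 hX0
    have a2 : ((2 ^ 32 : ℕ) : ℝ) = 2 ^ 32 := by norm_num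
    rw [hW, a2]
    exact div_le_div_of_nonneg_right a1 (by norm_num)
  have hw2 : W ≤ w + 2 := by
    have a1 : X * X ≤ (z : ℝ) * z + 2 ^ 32 := by
      have : X * X ≤ (z + 1) * (z + 1) := mul_le_mul hzb.2.le hzb.2.le hX0 (by positivity)
      have hz3 : (z : ℝ) ≤ 2 ^ 32 / 3 := hzb.1.trans hX1
      norm_num at hz3 ⊢
      nlinarith
    have a2 := hwb.2
    push_cast at a2
    rw [hW, div_le_iff₀ (by norm_num)]
    rw [div_lt_iff₀ (by norm_num)] at a2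
    norm_num at a1 a2 ⊢
    linarith
  have hW0 : 0 ≤ W := by positivity
  have hW1 : W ≤ 2 ^ 32 / 9 := by
    rw [hW, div_le_iff₀ (by norm_num)]
    have : X * X ≤ (2 ^ 32 / 3) * (2 ^ 32 / 3) := mul_le_mul hX1 hX1 hX0 (by norm_num)
    norm_num at this ⊢
    linarith
  obtain ⟨q1, q2, q3⟩ := pol_spec hw1 hw2 hW0 hW1
  obtain ⟨r1, r2⟩ := prod_spec hzb.1 hzb.2 hX1 q1 q2 q3
  have hser2 : 2 * X * polR W / 2 ^ 32 =
      2 ^ 32 * ∑ j ∈ range 6, 2 * (1 / (2 * (j : ℝ) + 1)) * x ^ (2 * j + 1) := by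
    rw [hW, polR_eq, hX]
    simp only [Finset.sum_range_succ, Finset.sum_range_zero]
    push_cast
    ring
  rw [hser2] at r1 r2
  exact comb_spec r1 r2 hser.1 hser.2 htail he

/-- from the invariant to the logarithm -/
theorem Inv.log_bd {N M e : ℕ} (h : Inv N M e) (hM : 2 ^ 40 ≤ M) :
    log M + e * log 2 ≤ log N ∧ log N ≤ log M + e * log 2 + 1 / 2 ^ 40 := by
  have hM0 : (2 : ℝ) ^ 40 ≤ M := by exact_mod_cast hM
  have hMp : (0 : ℝ) < M := lt_of_lt_of_le (by positivity) hM0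
  have h1 : (M : ℝ) * 2 ^ e ≤ N := by exact_mod_cast h.1
  have h2 : (N : ℝ) < (M + 1) * 2 ^ e := by exact_mod_cast h.2
  have hNp : (0 : ℝ) < N := lt_of_lt_of_le (by positivity) h1
  have e1 : log ((M : ℝ) * 2 ^ e) = log M + e * log 2 := by
    rw [log_mul hMp.ne' (by positivity), log_pow]
  constructor
  · rw [← e1]
    exact log_le_log (by positivity) h1
  · have h3 : log (N : ℝ) ≤ log ((M + 1) * 2 ^ e) := log_le_log hNp h2.le
    rw [log_mul (by positivity) (by positivity), log_pow] at h3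
    have h4 : log ((M : ℝ) + 1) = log M + log (1 + 1 / M) := by
      rw [← log_mul hMp.ne' (by positivity)]
      congr 1
      field_simp
    have h5 : log (1 + 1 / (M : ℝ)) ≤ 1 / M := by
      have := log_le_sub_one_of_pos (x := 1 + 1 / (M : ℝ)) (by positivity)
      linarith
    have h6 : 1 / (M : ℝ) ≤ 1 / 2 ^ 40 := one_div_le_one_div_of_le (by positivity) hM0
    linarith

/-- **the logarithm of the machine** -/
theorem lgSpec : LgSpec := by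
  intro N k h
  unfold lgW at h
  have i0 : Inv N N 0 := by
    constructor
    · simp
    · simp
  obtain ⟨N0, e0, h0, i0', b0⟩ := lvl_spec h i0
  obtain ⟨N1, e1, h1, i1, b1⟩ := lvl_spec h0 i0'
  obtain ⟨N2, e2, h2, i2, b2⟩ := lvl_spec h1 i1
  obtain ⟨N3, e3, h3, i3, b3⟩ := lvl_spec h2 i2
  obtain ⟨N4, e4, h4, i4, b4⟩ := lvl_spec h3 i3
  obtain ⟨N5, e5, h5, i5, b5⟩ := lvl_spec h4 i4
  obtain ⟨N6, e6, h6, i6, b6⟩ := lvl_spec h5 i5
  obtain ⟨M, e, h7, i7, b7⟩ := lvl_spec h6 i6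
  have he : e ≤ 255 := by
    have b0' : e0 ≤ 0 + 128 := b0
    have b1' : e1 ≤ e0 + 64 := b1
    have b2' : e2 ≤ e1 + 32 := b2
    have b3' : e3 ≤ e2 + 16 := b3
    have b4' : e4 ≤ e3 + 8 := b4
    have b5' : e5 ≤ e4 + 4 := b5
    have b6' : e6 ≤ e5 + 2 := b6
    have b7' : e ≤ e6 + 1 := b7
    omega
  cases hc : Nat.beq (Nat.shiftRight M 40) 1
  · change (Bool.rec false (lgT M e k) (Nat.beq (Nat.shiftRight M 40) 1) : Bool) = true at h7
    rw [hc] at h7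
    exact absurd h7 (by simp)
  · change (Bool.rec false (lgT M e k) (Nat.beq (Nat.shiftRight M 40) 1) : Bool) = true at h7
    rw [hc] at h7
    have h7' : lgT M e k = true := h7
    have hq : M / 2 ^ 40 = 1 := by
      have := Nat.eq_of_beq_eq_true hc
      change M >>> 40 = 1 at this
      rwa [Nat.shiftRight_eq_div_pow] at this
    have hM1 : 2 ^ 40 ≤ M := by
      by_contra hlt
      rw [Nat.div_eq_of_lt (not_le.1 hlt)] at hq
      omega
    have hM2 : M < 2 ^ 41 := by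
      have := Nat.lt_div_mul_add (a := M) (b := 2 ^ 40) (by positivity)
      rw [hq] at this
      omega
    obtain ⟨l, hl, hb⟩ := lgT_spec h7' hM1 hM2 he
    obtain ⟨g1, g2⟩ := i7.log_bd hM1
    have hlM : log (M : ℝ) ≤ 41 * log 2 := by
      have hM0 : (0 : ℝ) < M := by
        have : 0 < M := lt_of_lt_of_le (by positivity) hM1
        exact_mod_cast this
      have h8 : (M : ℝ) ≤ 2 ^ 41 := by exact_mod_cast hM2.le
      have := log_le_log hM0 h8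
      rw [log_pow] at this
      push_cast at this
      exact this
    obtain ⟨l1, l2, l3, l4⟩ := log_two_bounds
    have he1 : (e : ℝ) ≤ 255 := by exact_mod_cast he
    have hl2 : 0 ≤ log (2 : ℝ) := log_nonneg (by norm_num)
    have hel : (e : ℝ) * log 2 ≤ 255 * log 2 := mul_le_mul_of_nonneg_right he1 hl2
    rw [abs_le] at hb
    refine ⟨l, hl, ?_, ?_, ?_⟩
    · have : (l : ℝ) < 1099511627776 := by
        norm_num at hb l2
        linarith
      have h9 : l < 1099511627776 := by exact_mod_cast this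
      norm_num
      exact h9
    · exact hM1.trans ((Nat.le_mul_of_pos_right M (by positivity)).trans i7.1)
    · rw [abs_le]
      norm_num at hb g1 g2 ⊢
      constructor
      · linarith
      · linarith

end Vale.Agent.P030.H532.Lw
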