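import Vale.Agent.P030.H532.Final
import Vale.Agent.P030.H532.LgW

/-!
The wall engine without hypotheses.
-/

namespace Vale.Agent.P030.H532

/-- **soundness of the wall engine** -/
theorem cells_good {atoms : List Atom} {prs : List (ℕ × ℕ)} {cs : List ℕ}
    {cls : List Cell} {T : ℕ} (hne : cls ≠ []) (hst : Good atoms prs)
    (h : cells atoms (prs.map (mkCmp atoms cs)) cls T = true) {t : ℝ} (h0 : (T : ℝ) ≤ t)
    (h1 : t ≤ T + len cls) : ∀ p ∈ prs, pot atoms cs p.1 t ≤ pot atoms cs p.2 t :=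
  cells_sound_good Lw.lgSpec hne hst h h0 h1

/-- soundness of the wall engine, static check in Boolean form -/
theorem cells_static {atoms : List Atom} {prs : List (ℕ × ℕ)} {cs : List ℕ}
    {cls : List Cell} {T : ℕ} (hne : cls ≠ []) (hst : static atoms prs = true)
    (h : cells atoms (prs.map (mkCmp atoms cs)) cls T = true) {t : ℝ} (h0 : (T : ℝ) ≤ t)
    (h1 : t ≤ T + len cls) : ∀ p ∈ prs, pot atoms cs p.1 t ≤ pot atoms cs p.2 t :=
  cells_sound Lw.lgSpec hne hst h h0 h1

end Vale.Agent.P030.H532
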