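import Vale.Agent.P030.H532.Engine

/-!
Certificate table for the potentials of route N and wall pieces (Moebius images of segments).
-/

noncomputable section

namespace Vale.Agent.P030.H532

/-- `log max(R/N, |z - (X + Y i)/N|)` -/
def lm (N R : ℕ) (X Y : ℤ) (z : ℂ) : ℝ :=
  Real.log (max ((R : ℝ) / N) ‖z - ((X : ℂ) + (Y : ℂ) * Complex.I) / N‖)

/-- a symmetric pair of smeared atoms `(X ± Y i)/N` (one atom if `Y = 0`) of radius `R/N`;
`q` = charges (numerators) of the blocks -/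
structure Ent where
  X : ℤ
  Y : ℕ
  R : ℕ
  q : List ℤ

/-- `N` = denominator of the positions, `L` = denominator of charges and constants -/
structure Tab where
  N : ℕ
  L : ℕ
  ents : List Ent
  G : List ℤ

/-- potential of the unit charge(s) -/
def Ent.U (N : ℕ) (e : Ent) (z : ℂ) : ℝ :=
  if e.Y = 0 then lm N e.R e.X 0 z else lm N e.R e.X e.Y z + lm N e.R e.X (-(e.Y : ℤ)) z

/-- total charge of block `b` (numerator) -/
def Tab.mass (D : Tab) (b : ℕ) : ℤ :=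
  (D.ents.map fun e => e.q.getD b 0 * (if e.Y = 0 then 1 else 2)).sum

/-- the weight `W b` -/
def Tab.W (D : Tab) (b : ℕ) (z : ℂ) : ℝ :=
  ((D.ents.map fun e => (e.q.getD b 0 : ℝ) * e.U D.N z).sum + (D.G.getD b 0 : ℤ)) / D.L

/-- a piece: `z(t) = (a + a' t)/(b + b' t)` with Gaussian integers -/
structure Piece where
  ax : ℤ
  ay : ℤ
  ax' : ℤ
  ay' : ℤ
  bx : ℤ
  By : ℤ
  bx' : ℤ
  by' : ℤ

/-- numerator -/
def Piece.num (p : Piece) (t : ℝ) : ℂ :=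
  ((p.ax : ℂ) + (p.ay : ℂ) * Complex.I) + ((p.ax' : ℂ) + (p.ay' : ℂ) * Complex.I) * t

/-- denominator -/
def Piece.den (p : Piece) (t : ℝ) : ℂ :=
  ((p.bx : ℂ) + (p.By : ℂ) * Complex.I) + ((p.bx' : ℂ) + (p.by' : ℂ) * Complex.I) * t

/-- point -/
def Piece.z (p : Piece) (t : ℝ) : ℂ := p.num t / p.den t

/-- a real quadratic `A t² + B t + C` -/
structure Quad where
  A : ℤ
  B : ℤ
  C : ℤ
deriving DecidableEq

/-- value -/
def Quad.ev (Q : Quad) (t : ℝ) : ℝ := Q.A * t ^ 2 + Q.B * t + Q.C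

/-- `s² |N num - (X + i Y) den|²` -/
def Piece.out (p : Piece) (s N : ℕ) (X Y : ℤ) : Quad :=
  let u := (N : ℤ) * p.ax - (X * p.bx - Y * p.By)
  let v := (N : ℤ) * p.ay - (X * p.By + Y * p.bx)
  let u' := (N : ℤ) * p.ax' - (X * p.bx' - Y * p.by')
  let v' := (N : ℤ) * p.ay' - (X * p.by' + Y * p.bx')
  ⟨(s : ℤ) ^ 2 * (u' * u' + v' * v'), (s : ℤ) ^ 2 * (2 * (u * u' + v * v')),
    (s : ℤ) ^ 2 * (u * u + v * v)⟩

/-- `s² R² |den|²` -/
def Piece.ins (p : Piece) (s R : ℕ) : Quad :=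
  ⟨(s : ℤ) ^ 2 * (R : ℤ) ^ 2 * (p.bx' * p.bx' + p.by' * p.by'),
    (s : ℤ) ^ 2 * (R : ℤ) ^ 2 * (2 * (p.bx * p.bx' + p.By * p.by')),
    (s : ℤ) ^ 2 * (R : ℤ) ^ 2 * (p.bx * p.bx + p.By * p.By)⟩

/-- integer value -/
def Quad.evZ (Q : Quad) (t : ℤ) : ℤ := Q.A * t ^ 2 + Q.B * t + Q.C

/-- difference -/
def Quad.sub (Q P : Quad) : Quad := ⟨Q.A - P.A, Q.B - P.B, Q.C - P.C⟩

/-- `Q ≥ 0` on `[t0, t1]` (sufficient) -/
def Quad.posOn (Q : Quad) (t0 t1 : ℤ) : Bool :=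
  decide (0 ≤ Q.evZ t0 ∧ 0 ≤ Q.evZ t1 ∧
    (Q.A ≤ 0 ∨ 0 ≤ 2 * Q.A * t0 + Q.B ∨ 2 * Q.A * t1 + Q.B ≤ 0 ∨ Q.B ^ 2 ≤ 4 * Q.A * Q.C))

/-- outside or inside, decided at `t0` -/
def Piece.pick (p : Piece) (s N R : ℕ) (X Y t0 : ℤ) : Quad :=
  if (p.ins s R).evZ t0 ≤ (p.out s N X Y).evZ t0 then p.out s N X Y else p.ins s R

/-- the choice of `pick` is right on `[t0, t1]` -/
def Piece.pickOk (p : Piece) (s N R : ℕ) (X Y t0 t1 : ℤ) : Bool :=
  if (p.ins s R).evZ t0 ≤ (p.out s N X Y).evZ t0 then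
    ((p.out s N X Y).sub (p.ins s R)).posOn t0 t1 else ((p.ins s R).sub (p.out s N X Y)).posOn t0 t1

/-- the piece is real -/
def Piece.isReal (p : Piece) : Bool := p.ay == 0 && p.ay' == 0 && p.By == 0 && p.by' == 0

/-- the quadratics of an entry with their multiplicities -/
def Piece.terms (p : Piece) (s N : ℕ) (t0 : ℤ) (e : Ent) : List (Quad × List ℤ) :=
  if e.Y = 0 then [(p.pick s N e.R e.X 0 t0, e.q)]
  else if p.isReal then [(p.pick s N e.R e.X e.Y t0, e.q.map fun x => 2 * x)]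
  else [(p.pick s N e.R e.X e.Y t0, e.q), (p.pick s N e.R e.X (-(e.Y : ℤ)) t0, e.q)]

/-- the choices are right -/
def Piece.termsOk (p : Piece) (s N : ℕ) (t0 t1 : ℤ) (e : Ent) : Bool :=
  if e.Y = 0 then p.pickOk s N e.R e.X 0 t0 t1
  else if p.isReal then p.pickOk s N e.R e.X e.Y t0 t1
  else p.pickOk s N e.R e.X e.Y t0 t1 && p.pickOk s N e.R e.X (-(e.Y : ℤ)) t0 t1

end Vale.Agent.P030.H532
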