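import Vale.Agent.P030.H532.Sound

/-!
Soundness of the wall engine.
-/

namespace Vale.Agent.P030.H532

open Real

/-- the potential of block `b` -/
noncomputable def pot (atoms : List Atom) (cs : List ℕ) (b : ℕ) (t : ℝ) : ℝ :=
  (cs.getD b 0 : ℕ) / 4294967296 +
    (atoms.map fun a => ((fld a.V b : ℕ) : ℝ) * Real.log (a.ev t)).sum

/-- the static check -/
def static (atoms : List Atom) (prs : List (ℕ × ℕ)) : Bool :=
  decide (atoms.length ≤ 2 ^ 20) &&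
  (atoms.all fun a => okAtom prs a) &&
  prs.all fun p => decide (p.1 < 16 ∧ p.2 < 16 ∧ tot atoms p.1 = tot atoms p.2)

theorem okAtom_spec {prs : List (ℕ × ℕ)} {a : Atom} (h : okAtom prs a = true) :
    (a.Bp + a.Bn) ^ 2 ≤ 4 * a.A * a.C ∧ a.V < 2 ^ (96 * 16) ∧
    (∀ b < 16, fld a.V b < 2 ^ 32) ∧
    ∀ p ∈ prs, fld a.V p.1 ≤ fld a.V p.2 + a.D ∧ fld a.V p.2 ≤ fld a.V p.1 + a.D := by
  rw [okAtom, Bool.and_eq_true, decide_eq_true_eq, List.all_eq_true] at h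
  obtain ⟨⟨h1, h2, h3, h4⟩, h5⟩ := h
  exact ⟨h1, h3, h4, fun p hp => by simpa using h5 p hp⟩

/-- the static facts used by the soundness proof -/
structure Good (atoms : List Atom) (prs : List (ℕ × ℕ)) : Prop where
  len : atoms.length ≤ 2 ^ 20
  disc : ∀ a ∈ atoms, ((a.Bp : ℝ) - a.Bn) ^ 2 ≤ 4 * (a.A : ℝ) * a.C
  V_lt : ∀ a ∈ atoms, a.V < 2 ^ (96 * 16)
  fld_lt : ∀ a ∈ atoms, ∀ b < 16, fld a.V b < 2 ^ 32
  D : ∀ a ∈ atoms, ∀ p ∈ prs, fld a.V p.1 ≤ fld a.V p.2 + a.D ∧ fld a.V p.2 ≤ fld a.V p.1 + a.D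
  tot : ∀ p ∈ prs, p.1 < 16 ∧ p.2 < 16 ∧ tot atoms p.1 = tot atoms p.2

theorem good_of_static {atoms : List Atom} {prs : List (ℕ × ℕ)} (hst : static atoms prs = true) :
    Good atoms prs := by
  rw [static, Bool.and_eq_true, Bool.and_eq_true, decide_eq_true_eq, List.all_eq_true,
    List.all_eq_true] at hst
  obtain ⟨⟨hlen, hat⟩, hpr⟩ := hst
  exact
    { len := hlen
      disc := fun a ha => disc_real (okAtom_spec (hat a ha)).1
      V_lt := fun a ha => (okAtom_spec (hat a ha)).2.1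
      fld_lt := fun a ha => (okAtom_spec (hat a ha)).2.2.1
      D := fun a ha => (okAtom_spec (hat a ha)).2.2.2
      tot := fun p hp => by simpa using hpr p hp }

theorem crit_real {a t p n : ℕ} (h : crit a t p n = true) (hpn : p = 0 ∨ n = 0) {θ u : ℝ}
    (hθ : |θ| ≤ 1) (hu : |u| ≤ t) : 0 ≤ (a : ℝ) + θ * u + θ ^ 2 * ((p : ℝ) - n) := by
  obtain ⟨h1, h2⟩ := crit_spec h
  obtain ⟨x, hx⟩ : ∃ x : ℝ, x = |θ| := ⟨_, rfl⟩
  have hx0 : 0 ≤ x := by rw [hx]; exact abs_nonneg _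
  rw [← hx] at hθ
  have hx2 : θ ^ 2 = x ^ 2 := by rw [hx, sq_abs]
  have hthu : -(x * t) ≤ θ * u := by
    have h3 : |θ * u| ≤ x * t := by
      rw [abs_mul, ← hx]; exact mul_le_mul_of_nonneg_left hu hx0
    linarith [neg_abs_le (θ * u)]
  rw [hx2]
  have h1r : (t : ℝ) + n ≤ a + p := by exact_mod_cast h1
  have ht0 : (0 : ℝ) ≤ t := Nat.cast_nonneg _
  have hp0 : (0 : ℝ) ≤ p := Nat.cast_nonneg _
  have hn0 : (0 : ℝ) ≤ n := Nat.cast_nonneg _
  have ha0 : (0 : ℝ) ≤ a := Nat.cast_nonneg _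
  rcases h2 with h2 | h2
  · have h2r : 2 * (p : ℝ) ≤ t := by exact_mod_cast h2
    have h3 : 0 ≤ (1 - x) * (t - (p - n) * (1 + x)) := by
      refine mul_nonneg (by linarith) ?_
      have h4 : (p : ℝ) * (1 + x) ≤ p * 2 := mul_le_mul_of_nonneg_left (by linarith) hp0
      have h5 : 0 ≤ (n : ℝ) * (1 + x) := mul_nonneg hn0 (by linarith)
      linarith
    nlinarith
  · have h2r : (t : ℝ) * t ≤ 4 * a * p := by exact_mod_cast h2
    rcases hpn with hp | hn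
    · have hp' : (p : ℝ) = 0 := by rw [hp]; simp
      rw [hp'] at h2r h1r ⊢
      have ht : (t : ℝ) = 0 := by nlinarith
      rw [ht] at hthu h1r
      have h6 : x ^ 2 ≤ 1 := by nlinarith
      have h7 : x ^ 2 * (n : ℝ) ≤ 1 * n := mul_le_mul_of_nonneg_right h6 hn0
      linarith
    · have hn' : (n : ℝ) = 0 := by rw [hn]; simp
      rw [hn', sub_zero]
      rcases hp0.eq_or_lt with hp | hp
      · rw [← hp] at h2r ⊢
        have ht : (t : ℝ) = 0 := by nlinarith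
        rw [ht] at hthu
        linarith
      · have h6 : 0 ≤ 4 * (p : ℝ) * (a - x * t + x ^ 2 * p) := by
          nlinarith [sq_nonneg ((t : ℝ) - 2 * p * x)]
        have h7 : 0 ≤ (a : ℝ) - x * t + x ^ 2 * p := by
          by_contra hneg
          rw [not_le] at hneg
          have : 4 * (p : ℝ) * (a - x * t + x ^ 2 * p) < 0 :=
            mul_neg_of_pos_of_neg (by linarith) hneg
          linarith
        linarith

theorem list_ineq {i j T H : ℕ} {θ κ : ℝ} (X : Atom → ℝ) (zs : List (Atom × ℕ))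
    (hX : ∀ z ∈ zs, |4294967296 * X z.1 - ((z.2 : ℝ) + ((z.1.g T H : ℝ) - 8589934592) * θ +
        ((z.1.h T H : ℝ) - 8589934592) * θ ^ 2)| ≤ 606 + κ * z.1.e T H)
    (hD : ∀ z ∈ zs, fld z.1.V i ≤ fld z.1.V j + z.1.D ∧ fld z.1.V j ≤ fld z.1.V i + z.1.D) :
    (((zs.map fun z => fld z.1.V j * z.2).sum : ℕ) : ℝ) -
        ((zs.map fun z => fld z.1.V i * z.2).sum : ℕ) +
      θ * ((((zs.map fun z => fld z.1.V j * z.1.g T H).sum : ℕ) : ℝ) -
        ((zs.map fun z => fld z.1.V i * z.1.g T H).sum : ℕ) - 8589934592 *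
        ((((zs.map fun z => fld z.1.V j).sum : ℕ) : ℝ) - ((zs.map fun z => fld z.1.V i).sum : ℕ))) +
      θ ^ 2 * ((((zs.map fun z => fld z.1.V j * z.1.h T H).sum : ℕ) : ℝ) -
        ((zs.map fun z => fld z.1.V i * z.1.h T H).sum : ℕ) - 8589934592 *
        ((((zs.map fun z => fld z.1.V j).sum : ℕ) : ℝ) - ((zs.map fun z => fld z.1.V i).sum : ℕ))) -
      606 * ((zs.map fun z => z.1.D).sum : ℕ) - κ * ((zs.map fun z => z.1.D * z.1.e T H).sum : ℕ) ≤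
    4294967296 * ((zs.map fun z => ((fld z.1.V j : ℕ) : ℝ) * X z.1).sum -
      (zs.map fun z => ((fld z.1.V i : ℕ) : ℝ) * X z.1).sum) := by
  induction zs with
  | nil => simp
  | cons z zs ih =>
    have h1 := ih (fun y hy => hX y (List.mem_cons_of_mem _ hy))
      (fun y hy => hD y (List.mem_cons_of_mem _ hy))
    have h2 := hX z List.mem_cons_self
    obtain ⟨h3, h4⟩ := hD z List.mem_cons_self
    simp only [List.map_cons, List.sum_cons, Nat.cast_add, Nat.cast_mul] at h1 ⊢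
    obtain ⟨vi, hvi⟩ : ∃ v : ℝ, v = ((fld z.1.V i : ℕ) : ℝ) := ⟨_, rfl⟩
    obtain ⟨vj, hvj⟩ : ∃ v : ℝ, v = ((fld z.1.V j : ℕ) : ℝ) := ⟨_, rfl⟩
    obtain ⟨D, hDd⟩ : ∃ v : ℝ, v = (z.1.D : ℝ) := ⟨_, rfl⟩
    obtain ⟨e, hed⟩ : ∃ v : ℝ, v = (z.1.e T H : ℝ) := ⟨_, rfl⟩
    obtain ⟨Y, hYd⟩ : ∃ v : ℝ, v = 4294967296 * X z.1 - ((z.2 : ℝ) +
      ((z.1.g T H : ℝ) - 8589934592) * θ + ((z.1.h T H : ℝ) - 8589934592) * θ ^ 2) := ⟨_, rfl⟩
    have h5 : |vj - vi| ≤ D := by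
      have h6 : (((fld z.1.V i : ℕ)) : ℝ) ≤ (fld z.1.V j : ℕ) + z.1.D := by exact_mod_cast h3
      have h7 : (((fld z.1.V j : ℕ)) : ℝ) ≤ (fld z.1.V i : ℕ) + z.1.D := by exact_mod_cast h4
      rw [hvi, hvj, hDd, abs_le]
      constructor <;> linarith
    have h8 : -(D * (606 + κ * e)) ≤ (vj - vi) * Y := by
      have h9 : |(vj - vi) * Y| ≤ D * (606 + κ * e) := by
        rw [abs_mul]
        rw [← hYd, ← hed] at h2
        exact mul_le_mul h5 h2 (abs_nonneg _) ((abs_nonneg _).trans h5)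
      linarith [neg_abs_le ((vj - vi) * Y)]
    rw [hYd] at h8
    rw [← hvi, ← hvj, ← hDd, ← hed]
    nlinarith [h1, h8]

/-- **one cell** -/
theorem cell_sound (hlg : LgSpec) {atoms : List Atom} {prs : List (ℕ × ℕ)} {cs : List ℕ}
    (hst : Good atoms prs) {T0 H m : ℕ}
    (hrun : run T0 H (4294967296 / ((m + 2) * (m + 2))) (finF (prs.map (mkCmp atoms cs)) m)
      atoms 0 0 0 0 = true) {t : ℝ} (ht : |t - T0| ≤ H) :
    ∀ p ∈ prs, pot atoms cs p.1 t ≤ pot atoms cs p.2 t := by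
  intro p hp
  obtain ⟨hp1, hp2, htot⟩ := hst.tot p hp
  obtain ⟨zs, hz1, hz2, hz3⟩ := run_spec hlg atoms 0 0 0 0 hrun
  rw [zero_add, zero_add, zero_add, zero_add] at hz3
  have hmem : ∀ z ∈ zs, z.1 ∈ atoms := by
    intro z hz
    rw [← hz1]
    exact List.mem_map_of_mem hz
  have hcmp := finF_spec hz3 (mkCmp atoms cs p) (List.mem_map_of_mem hp)
  have hreal : ∀ z ∈ zs, z.1.g T0 H < 2 ^ 40 ∧ z.1.h T0 H < 2 ^ 40 ∧
      ∀ t θ : ℝ, |θ| ≤ 1 → t = T0 + H * θ →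
      |4294967296 * Real.log (z.1.ev t) - ((z.2 : ℝ) + ((z.1.g T0 H : ℝ) - 8589934592) * θ +
        ((z.1.h T0 H : ℝ) - 8589934592) * θ ^ 2)| ≤
        606 + 2 / (3 * ((m : ℝ) + 1)) * z.1.e T0 H :=
    fun z hz => atom_real (l := z.2) (hz2 z hz) (hst.disc z.1 (hmem z hz)) rfl
  have hzlen : zs.length ≤ 2 ^ 20 := by
    have : zs.length = atoms.length := by rw [← hz1, List.length_map]
    rw [this]; exact hst.len
  have hV : ∀ z ∈ zs, z.1.V < 2 ^ (96 * 16) := fun z hz => hst.V_lt z.1 (hmem z hz)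
  have hf : ∀ z ∈ zs, ∀ b < 16, fld z.1.V b < 2 ^ 32 := fun z hz => hst.fld_lt z.1 (hmem z hz)
  have dP : ∀ k < 16, fld (zs.map fun z => z.1.V * z.2).sum k =
      (zs.map fun z => fld z.1.V k * z.2).sum := fun k hk =>
    fld_dot zs (fun z => z.1.V) (fun z => z.2) hV hf (fun z hz => (hz2 z hz).l_lt) hzlen hk
  have dQ : ∀ k < 16, fld (zs.map fun z => z.1.V * z.1.g T0 H).sum k =
      (zs.map fun z => fld z.1.V k * z.1.g T0 H).sum := fun k hk =>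
    fld_dot zs (fun z => z.1.V) (fun z => z.1.g T0 H) hV hf (fun z hz => (hreal z hz).1) hzlen hk
  have dS : ∀ k < 16, fld (zs.map fun z => z.1.V * z.1.h T0 H).sum k =
      (zs.map fun z => fld z.1.V k * z.1.h T0 H).sum := fun k hk =>
    fld_dot zs (fun z => z.1.V) (fun z => z.1.h T0 H) hV hf (fun z hz => (hreal z hz).2.1) hzlen hk
  rw [CmpOk, mkCmp] at hcmp
  simp only [digit_eq] at hcmp
  rw [dP _ hp1, dP _ hp2, dQ _ hp1, dQ _ hp2, dS _ hp1, dS _ hp2] at hcmp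
  obtain ⟨hle, hcrit⟩ := hcmp
  -- the parameter
  obtain ⟨θ, hθ, htθ⟩ : ∃ θ : ℝ, |θ| ≤ 1 ∧ t = T0 + H * θ := by
    rcases Nat.eq_zero_or_pos H with h0 | h0
    · refine ⟨0, by simp, ?_⟩
      rw [h0] at ht ⊢
      have : t - T0 = 0 := abs_eq_zero.1 (le_antisymm (by simpa using ht) (abs_nonneg _))
      simp only [Nat.cast_zero, zero_mul, add_zero]
      linarith
    · have hH : (0 : ℝ) < H := by exact_mod_cast h0
      refine ⟨(t - T0) / H, ?_, ?_⟩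
      · rw [abs_div, abs_of_pos hH, div_le_one hH]; exact ht
      · field_simp; ring
  have hm1 := list_ineq (i := p.1) (j := p.2) (T := T0) (H := H) (θ := θ)
    (κ := 2 / (3 * ((m : ℝ) + 1))) (fun a => Real.log (a.ev t)) zs
    (fun z hz => (hreal z hz).2.2 t θ hθ htθ) (fun z hz => hst.D z.1 (hmem z hz) p hp)
  -- potentials
  have hsum : ∀ k, (atoms.map fun a => ((fld a.V k : ℕ) : ℝ) * Real.log (a.ev t)).sum =
      (zs.map fun z => ((fld z.1.V k : ℕ) : ℝ) * Real.log (z.1.ev t)).sum := by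
    intro k
    rw [← hz1, List.map_map]; rfl
  have hsumD : (zs.map fun z => z.1.D).sum = sumD atoms := by
    rw [sumD, ← hz1, List.map_map]; rfl
  have htotz : (zs.map fun z => fld z.1.V p.1).sum = (zs.map fun z => fld z.1.V p.2).sum := by
    have h1 : ∀ k, (zs.map fun z => fld z.1.V k).sum = tot atoms k := by
      intro k
      rw [tot, ← hz1, List.map_map]; rfl
    rw [h1, h1, htot]
  rw [hsumD, htotz, sub_self, mul_zero, sub_zero, sub_zero] at hm1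
  rw [pot, pot, hsum, hsum]
  -- names
  obtain ⟨Pi, hPi⟩ : ∃ x, x = (zs.map fun z => fld z.1.V p.1 * z.2).sum := ⟨_, rfl⟩
  obtain ⟨Pj, hPj⟩ : ∃ x, x = (zs.map fun z => fld z.1.V p.2 * z.2).sum := ⟨_, rfl⟩
  obtain ⟨Qi, hQi⟩ : ∃ x, x = (zs.map fun z => fld z.1.V p.1 * z.1.g T0 H).sum := ⟨_, rfl⟩
  obtain ⟨Qj, hQj⟩ : ∃ x, x = (zs.map fun z => fld z.1.V p.2 * z.1.g T0 H).sum := ⟨_, rfl⟩
  obtain ⟨Si, hSi⟩ : ∃ x, x = (zs.map fun z => fld z.1.V p.1 * z.1.h T0 H).sum := ⟨_, rfl⟩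
  obtain ⟨Sj, hSj⟩ : ∃ x, x = (zs.map fun z => fld z.1.V p.2 * z.1.h T0 H).sum := ⟨_, rfl⟩
  obtain ⟨R, hR⟩ : ∃ x, x = (zs.map fun z => z.1.D * z.1.e T0 H).sum := ⟨_, rfl⟩
  obtain ⟨Li, hLi⟩ : ∃ x, x = (zs.map fun z => ((fld z.1.V p.1 : ℕ) : ℝ) *
    Real.log (z.1.ev t)).sum := ⟨_, rfl⟩
  obtain ⟨Lj, hLj⟩ : ∃ x, x = (zs.map fun z => ((fld z.1.V p.2 : ℕ) : ℝ) *
    Real.log (z.1.ev t)).sum := ⟨_, rfl⟩
  rw [← hPi, ← hPj, ← hR] at hle
  rw [← hPi, ← hPj, ← hQi, ← hQj, ← hSi, ← hSj, ← hR] at hcrit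
  rw [← hPi, ← hPj, ← hQi, ← hQj, ← hSi, ← hSj, ← hR, ← hLi, ← hLj] at hm1
  rw [← hLi, ← hLj]
  have hcr := crit_real hcrit (by omega) hθ (u := (Qj : ℝ) - Qi) (by
    rw [abs_le]
    rcases le_total Qi Qj with h | h
    · have h1 : Qi - Qj = 0 := Nat.sub_eq_zero_of_le h
      have h2 : ((Qj - Qi : ℕ) : ℝ) = (Qj : ℝ) - Qi := Nat.cast_sub h
      have h3 : (Qi : ℝ) ≤ Qj := by exact_mod_cast h
      rw [h1, Nat.zero_add, h2]
      constructor <;> linarith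
    · have h1 : Qj - Qi = 0 := Nat.sub_eq_zero_of_le h
      have h2 : ((Qi - Qj : ℕ) : ℝ) = (Qi : ℝ) - Qj := Nat.cast_sub h
      have h3 : (Qj : ℝ) ≤ Qi := by exact_mod_cast h
      rw [h1, Nat.add_zero, h2]
      constructor <;> linarith)
  have hpn : (((Sj - Si : ℕ) : ℝ) - ((Si - Sj : ℕ) : ℝ)) = (Sj : ℝ) - Si := by
    rcases le_total Si Sj with h | h
    · have h1 : Si - Sj = 0 := Nat.sub_eq_zero_of_le h
      rw [h1, Nat.cast_sub h]; simp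
    · have h1 : Sj - Si = 0 := Nat.sub_eq_zero_of_le h
      rw [h1, Nat.cast_sub h]; simp
  rw [hpn, Nat.cast_sub hle] at hcr
  push_cast at hcr
  -- the remainder
  have hrem : 2 / (3 * ((m : ℝ) + 1)) * R ≤ ((2 * R / (3 * (m + 1)) : ℕ) : ℝ) + 1 := by
    obtain ⟨-, h2⟩ := div_bounds (x := 2 * R) (N := 3 * (m + 1)) (by positivity)
    have h3 : ((2 * R : ℕ) : ℝ) / ((3 * (m + 1) : ℕ) : ℝ) = 2 / (3 * ((m : ℝ) + 1)) * R := by
      push_cast; ring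
    rw [h3] at h2
    exact h2
  have hD0 : (0 : ℝ) ≤ sumD atoms := Nat.cast_nonneg _
  have hfin : 0 ≤ 4294967296 * (Lj - Li) + (cs.getD p.2 0 : ℕ) - (cs.getD p.1 0 : ℕ) := by
    linarith
  have h32 : (0 : ℝ) < 4294967296 := by norm_num
  have hfin2 : 4294967296 * (((cs.getD p.1 0 : ℕ) : ℝ) / 4294967296 + Li) ≤
      4294967296 * (((cs.getD p.2 0 : ℕ) : ℝ) / 4294967296 + Lj) := by
    rw [mul_add, mul_add, mul_div_cancel₀ _ h32.ne', mul_div_cancel₀ _ h32.ne']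
    linarith
  exact le_of_mul_le_mul_left hfin2 h32

/-- soundness of the wall engine -/
theorem cells_sound_good (hlg : LgSpec) {atoms : List Atom} {prs : List (ℕ × ℕ)} {cs : List ℕ}
    {cls : List Cell} {T : ℕ} (hne : cls ≠ []) (hst : Good atoms prs)
    (h : cells atoms (prs.map (mkCmp atoms cs)) cls T = true) {t : ℝ} (h0 : (T : ℝ) ≤ t)
    (h1 : t ≤ T + len cls) : ∀ p ∈ prs, pot atoms cs p.1 t ≤ pot atoms cs p.2 t := by
  rcases cells_spec cls T h t h0 h1 with ⟨T0, H, m, ht, hrun⟩ | h2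
  · exact cell_sound hlg hst hrun ht
  · exact absurd h2 hne

/-- **soundness of the wall engine** -/
theorem cells_sound (hlg : LgSpec) {atoms : List Atom} {prs : List (ℕ × ℕ)} {cs : List ℕ}
    {cls : List Cell} {T : ℕ} (hne : cls ≠ []) (hst : static atoms prs = true)
    (h : cells atoms (prs.map (mkCmp atoms cs)) cls T = true) {t : ℝ} (h0 : (T : ℝ) ≤ t)
    (h1 : t ≤ T + len cls) : ∀ p ∈ prs, pot atoms cs p.1 t ≤ pot atoms cs p.2 t :=
  cells_sound_good hlg hne (good_of_static hst) h h0 h1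

end Vale.Agent.P030.H532
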