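import Vale.Agent.P030.H532.Engine

/-!
Packing of several natural numbers in base `2^96`.
-/

namespace Vale.Agent.P030.H532

theorem fld_eq (V b : ℕ) : fld V b = V / (2 ^ 96) ^ b % 2 ^ 96 := by
  rw [fld, pow_mul]

theorem fld_zero (V : ℕ) : fld V 0 = V % 2 ^ 96 := by simp [fld_eq]

theorem fld_succ (V b : ℕ) : fld V (b + 1) = fld (V / 2 ^ 96) b := by
  rw [fld_eq, fld_eq, pow_succ', Nat.div_div_eq_div_mul]

theorem fld_lt (V b : ℕ) : fld V b < 2 ^ 96 := Nat.mod_lt _ (by positivity)

/-- expansion in base `2^96` -/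
theorem expand (n : ℕ) : ∀ V : ℕ, V < (2 ^ 96) ^ n →
    V = ∑ b ∈ Finset.range n, fld V b * (2 ^ 96) ^ b := by
  induction n with
  | zero => intro V hV; simpa using hV
  | succ n ih =>
    intro V hV
    rw [Finset.sum_range_succ']
    have h1 : V / 2 ^ 96 < (2 ^ 96) ^ n := by
      rw [Nat.div_lt_iff_lt_mul (by positivity)]
      rwa [pow_succ] at hV
    have h2 := ih _ h1
    have h3 : ∑ k ∈ Finset.range n, fld V (k + 1) * (2 ^ 96) ^ (k + 1) =
        (2 ^ 96) * ∑ k ∈ Finset.range n, fld (V / 2 ^ 96) k * (2 ^ 96) ^ k := by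
      rw [Finset.mul_sum]
      refine Finset.sum_congr rfl fun k _ => ?_
      rw [fld_succ, pow_succ]; ring
    rw [h3, ← h2, fld_zero, pow_zero, mul_one]
    exact (Nat.div_add_mod V (2 ^ 96)).symm

/-- extraction of a digit -/
theorem digit_of_sum (n : ℕ) : ∀ (k : ℕ) (d : ℕ → ℕ), (∀ b < n, d b < 2 ^ 96) → k < n →
    fld (∑ b ∈ Finset.range n, d b * (2 ^ 96) ^ b) k = d k := by
  induction n with
  | zero => intro k d _ hk; omega
  | succ n ih =>
    intro k d hd hk
    have h1 : ∑ b ∈ Finset.range (n + 1), d b * (2 ^ 96) ^ b =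
        d 0 + (2 ^ 96) * ∑ b ∈ Finset.range n, d (b + 1) * (2 ^ 96) ^ b := by
      rw [Finset.sum_range_succ', pow_zero, mul_one, add_comm, Finset.mul_sum]
      congr 1
      refine Finset.sum_congr rfl fun b _ => ?_
      rw [pow_succ]; ring
    rw [h1]
    cases k with
    | zero =>
      rw [fld_zero, Nat.add_mul_mod_self_left, Nat.mod_eq_of_lt (hd 0 (by omega))]
    | succ k =>
      rw [fld_succ, Nat.add_mul_div_left _ _ (by positivity), Nat.div_eq_of_lt (hd 0 (by omega)),
        zero_add]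
      exact ih k (fun b => d (b + 1)) (fun b hb => hd _ (by omega)) (by omega)

/-- **the packed sum** -/
theorem fld_dot {α : Type*} (zs : List α) (V x : α → ℕ) (hV : ∀ z ∈ zs, V z < 2 ^ (96 * 16))
    (hf : ∀ z ∈ zs, ∀ b < 16, fld (V z) b < 2 ^ 32) (hx : ∀ z ∈ zs, x z < 2 ^ 40)
    (hlen : zs.length ≤ 2 ^ 20) {k : ℕ} (hk : k < 16) :
    fld (zs.map fun z => V z * x z).sum k = (zs.map fun z => fld (V z) k * x z).sum := by
  have h1 : (zs.map fun z => V z * x z).sum =
      ∑ b ∈ Finset.range 16, (zs.map fun z => fld (V z) b * x z).sum * (2 ^ 96) ^ b := by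
    clear hlen
    induction zs with
    | nil => simp
    | cons z zs ih =>
      simp only [List.map_cons, List.sum_cons]
      rw [ih (fun y hy => hV y (List.mem_cons_of_mem _ hy))
        (fun y hy => hf y (List.mem_cons_of_mem _ hy))
        (fun y hy => hx y (List.mem_cons_of_mem _ hy))]
      have h2 := expand 16 (V z) (by rw [← pow_mul]; exact hV z List.mem_cons_self)
      conv_lhs => rw [h2]
      rw [Finset.sum_mul, ← Finset.sum_add_distrib]
      refine Finset.sum_congr rfl fun b _ => ?_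
      ring
  have h2 : ∀ b < 16, (zs.map fun z => fld (V z) b * x z).sum ≤ zs.length * (2 ^ 32 * 2 ^ 40) := by
    intro b hb
    clear hlen h1
    induction zs with
    | nil => simp
    | cons z zs ih =>
      simp only [List.map_cons, List.sum_cons, List.length_cons]
      have h3 := ih (fun y hy => hV y (List.mem_cons_of_mem _ hy))
        (fun y hy => hf y (List.mem_cons_of_mem _ hy))
        (fun y hy => hx y (List.mem_cons_of_mem _ hy))
      have h4 : fld (V z) b * x z ≤ 2 ^ 32 * 2 ^ 40 :=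
        Nat.mul_le_mul (hf z List.mem_cons_self b hb).le (hx z List.mem_cons_self).le
      rw [add_mul, one_mul]
      omega
  rw [h1]
  refine digit_of_sum 16 k (fun b => (zs.map fun z => fld (V z) b * x z).sum) (fun b hb => ?_) hk
  calc (zs.map fun z => fld (V z) b * x z).sum ≤ zs.length * (2 ^ 32 * 2 ^ 40) := h2 b hb
    _ ≤ 2 ^ 20 * (2 ^ 32 * 2 ^ 40) := Nat.mul_le_mul_right _ hlen
    _ < 2 ^ 96 := by norm_num

end Vale.Agent.P030.H532
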