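import Mathlib.Analysis.SpecialFunctions.Complex.LogBounds

/-!
Second order expansion of the logarithm of a nonnegative quadratic polynomial.
-/

namespace Vale.Agent.P030.H532

open Real

theorem log_one_add_second {y e M : ℝ} (hM : 1 < M) (hy : y ^ 2 ≤ 4 * e) (he : e * M ^ 2 ≤ 1) :
    |Real.log (1 + y + e) - (y + e - y ^ 2 / 2)| ≤ 2 / (3 * (M - 1)) * e := by
  have he0 : 0 ≤ e := by nlinarith [sq_nonneg y]
  set v : ℝ := Real.sqrt (e - y ^ 2 / 4) with hv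
  have hv2 : v ^ 2 = e - y ^ 2 / 4 := Real.sq_sqrt (by linarith)
  set w : ℂ := ⟨y / 2, v⟩ with hw
  have hre : w.re = y / 2 := rfl
  have him : w.im = v := rfl
  have hns : Complex.normSq w = e := by
    rw [Complex.normSq_apply, hre, him]; nlinarith
  have hn : ‖w‖ ^ 2 = e := by rw [← Complex.normSq_eq_norm_sq, hns]
  have hM0 : 0 < M := by linarith
  have hn1 : ‖w‖ * M ≤ 1 := by
    have h1 : (‖w‖ * M) ^ 2 ≤ 1 ^ 2 := by rw [mul_pow, hn, one_pow]; exact he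
    exact abs_le_of_sq_le_sq' h1 zero_le_one |>.2
  have hn1' : ‖w‖ ≤ 1 / M := by rw [le_div_iff₀ hM0]; exact hn1
  have hlt : ‖w‖ < 1 := lt_of_le_of_lt hn1' (by rw [div_lt_one hM0]; exact hM)
  have h1 := Complex.norm_log_sub_logTaylor_le 2 hlt
  have hT : Complex.logTaylor 3 w = w - w ^ 2 / 2 := by
    simp [Complex.logTaylor_succ, Complex.logTaylor_zero]
    ring
  rw [show (2 + 1 : ℕ) = 3 from rfl, hT] at h1
  have h2 : |(Complex.log (1 + w) - (w - w ^ 2 / 2)).re| ≤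
      ‖w‖ ^ 3 * (1 - ‖w‖)⁻¹ / 3 := by
    refine (Complex.abs_re_le_norm _).trans (h1.trans (le_of_eq ?_))
    norm_num
  have hne : Complex.normSq (1 + w) = 1 + y + e := by
    rw [Complex.normSq_apply]
    simp only [Complex.add_re, Complex.add_im, Complex.one_re, Complex.one_im, hre, him]
    nlinarith
  have hlog : 2 * (Complex.log (1 + w)).re = Real.log (1 + y + e) := by
    rw [Complex.log_re, ← hne, Complex.normSq_eq_norm_sq, Real.log_pow]
    norm_num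
  have hsq : (w ^ 2).re = y ^ 2 / 2 - e := by
    rw [sq, Complex.mul_re, hre, him]; nlinarith
  have h3 : (Complex.log (1 + w) - (w - w ^ 2 / 2)).re =
      (Real.log (1 + y + e) - (y + e - y ^ 2 / 2)) / 2 := by
    have hdiv : (w ^ 2 / 2).re = (w ^ 2).re / 2 := by
      have h2' : (w ^ 2 / 2 : ℂ) = w ^ 2 / ((2 : ℝ) : ℂ) := by norm_num
      rw [h2', Complex.div_ofReal_re]
    rw [Complex.sub_re, Complex.sub_re, hdiv, hsq, hre, ← hlog]
    ring
  rw [h3, abs_div, abs_two] at h2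
  have h4 : ‖w‖ ^ 3 * (1 - ‖w‖)⁻¹ ≤ e / (M - 1) := by
    have h5 : ‖w‖ * (1 - ‖w‖)⁻¹ ≤ 1 / (M - 1) := by
      rw [← div_eq_mul_inv, div_le_div_iff₀ (by linarith) (by linarith)]
      nlinarith
    calc ‖w‖ ^ 3 * (1 - ‖w‖)⁻¹ = ‖w‖ ^ 2 * (‖w‖ * (1 - ‖w‖)⁻¹) := by ring
      _ ≤ ‖w‖ ^ 2 * (1 / (M - 1)) := mul_le_mul_of_nonneg_left h5 (sq_nonneg _)
      _ = e / (M - 1) := by rw [hn]; ring
  have h6 : |Real.log (1 + y + e) - (y + e - y ^ 2 / 2)| ≤ 2 * (e / (M - 1) / 3) := by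
    have h7 : ‖w‖ ^ 3 * (1 - ‖w‖)⁻¹ / 3 ≤ e / (M - 1) / 3 := by linarith
    linarith
  refine h6.trans (le_of_eq ?_)
  have : M - 1 ≠ 0 := by linarith
  field_simp

end Vale.Agent.P030.H532
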