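import Vale.Agent.P030.H532.Spec
import Vale.Agent.P030.H532.Taylor

/-!
Soundness of the wall engine: one atom on one cell.
-/

namespace Vale.Agent.P030.H532

open Real

/-- value of the quadratic -/
noncomputable def Atom.ev (a : Atom) (t : ℝ) : ℝ := a.A * t ^ 2 + ((a.Bp : ℝ) - a.Bn) * t + a.C

theorem quad_nonneg {A B C : ℝ} (hA : 0 ≤ A) (hC : 0 ≤ C) (h : B ^ 2 ≤ 4 * A * C) (x : ℝ) :
    0 ≤ A * x ^ 2 + B * x + C := by
  rcases hA.eq_or_lt with h0 | h0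
  · have hB2 : B = 0 := by
      rw [← h0] at h
      have : B ^ 2 ≤ 0 := by linarith
      exact pow_eq_zero_iff (two_ne_zero) |>.1 (le_antisymm this (sq_nonneg _))
    rw [← h0, hB2]; linarith
  · have h4 : 0 ≤ 4 * A * (A * x ^ 2 + B * x + C) := by nlinarith [sq_nonneg (2 * A * x + B)]
    by_contra hneg
    rw [not_le] at hneg
    have : 4 * A * (A * x ^ 2 + B * x + C) < 0 := by
      apply mul_neg_of_pos_of_neg <;> linarith
    linarith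

theorem disc_real {a : Atom} (hB : (a.Bp + a.Bn) ^ 2 ≤ 4 * a.A * a.C) :
    ((a.Bp : ℝ) - a.Bn) ^ 2 ≤ 4 * (a.A : ℝ) * a.C := by
  have h1 : ((((a.Bp + a.Bn) ^ 2 : ℕ)) : ℝ) ≤ ((4 * a.A * a.C : ℕ) : ℝ) := Nat.cast_le.2 hB
  push_cast at h1
  have h3 : (0 : ℝ) ≤ (a.Bp : ℝ) * a.Bn := by positivity
  nlinarith

theorem N_real {a : Atom} {T : ℕ} (hd : ((a.Bp : ℝ) - a.Bn) ^ 2 ≤ 4 * (a.A : ℝ) * a.C) :
    (a.N T : ℝ) = a.A * (T : ℝ) ^ 2 + ((a.Bp : ℝ) - a.Bn) * T + a.C := by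
  have hNle : a.Bn * T ≤ (a.A * T + a.Bp) * T + a.C := by
    have h1 := quad_nonneg (Nat.cast_nonneg a.A) (Nat.cast_nonneg a.C) hd (T : ℝ)
    have h2 : ((a.Bn * T : ℕ) : ℝ) ≤ (((a.A * T + a.Bp) * T + a.C : ℕ) : ℝ) := by
      push_cast
      nlinarith
    exact_mod_cast h2
  rw [Atom.N, Nat.cast_sub hNle]
  push_cast
  ring

/-- `⌊x / N⌋` -/
theorem div_bounds {x N : ℕ} (hN : 0 < N) :
    ((x / N : ℕ) : ℝ) ≤ (x : ℝ) / N ∧ (x : ℝ) / N ≤ ((x / N : ℕ) : ℝ) + 1 := by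
  have hN' : (0 : ℝ) < N := by exact_mod_cast hN
  constructor
  · rw [le_div_iff₀ hN']
    exact_mod_cast Nat.div_mul_le_self x N
  · rw [div_le_iff₀ hN']
    have h1 : x < (x / N + 1) * N := Nat.lt_mul_of_div_lt (Nat.lt_succ_self _) hN
    exact_mod_cast h1.le

/-- relative size of the quadratic term -/
noncomputable def eR (a : Atom) (T H : ℕ) : ℝ := (H : ℝ) ^ 2 * a.A / a.N T

/-- relative size of the linear term -/
noncomputable def yR (a : Atom) (T H : ℕ) : ℝ :=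
  (H : ℝ) * (2 * a.A * T + ((a.Bp : ℝ) - a.Bn)) / a.N T

theorem e_bounds {a : Atom} {T H : ℕ} (hN : 0 < a.N T) :
    4294967296 * eR a T H ≤ a.e T H ∧ (a.e T H : ℝ) ≤ 4294967296 * eR a T H + 1 := by
  obtain ⟨h1, h2⟩ := div_bounds (x := 4294967296 * (H * H * a.A)) hN
  have h3 : ((4294967296 * (H * H * a.A) : ℕ) : ℝ) / (a.N T : ℝ) = 4294967296 * eR a T H := by
    rw [eR]; push_cast; ring
  rw [h3] at h1 h2
  have h4 : (a.e T H : ℝ) = ((4294967296 * (H * H * a.A) / a.N T : ℕ) : ℝ) + 1 := by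
    rw [Atom.e]; exact Nat.cast_succ _
  rw [h4]
  exact ⟨h2, by linarith⟩

theorem eR_nonneg (a : Atom) (T H : ℕ) : 0 ≤ eR a T H := by rw [eR]; positivity

theorem e_le_inv {a : Atom} {T H m : ℕ} (hN : 0 < a.N T)
    (he : a.e T H ≤ 4294967296 / ((m + 2) * (m + 2))) : eR a T H * ((m : ℝ) + 2) ^ 2 ≤ 1 := by
  have h2 : a.e T H * ((m + 2) * (m + 2)) ≤ 4294967296 :=
    (Nat.mul_le_mul_right _ he).trans (Nat.div_mul_le_self _ _)
  have h3 : ((a.e T H * ((m + 2) * (m + 2)) : ℕ) : ℝ) ≤ ((4294967296 : ℕ) : ℝ) := Nat.cast_le.2 h2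
  have h4 : (a.e T H : ℝ) * ((m : ℝ) + 2) ^ 2 ≤ 4294967296 := by
    push_cast at h3
    have : (a.e T H : ℝ) * ((m : ℝ) + 2) ^ 2 = a.e T H * ((m + 2) * (m + 2)) := by ring
    rw [this]; exact h3
  have h5 : 4294967296 * eR a T H * ((m : ℝ) + 2) ^ 2 ≤ a.e T H * ((m : ℝ) + 2) ^ 2 :=
    mul_le_mul_of_nonneg_right (e_bounds hN).1 (sq_nonneg _)
  linarith

theorem yR_sq {a : Atom} {T H : ℕ} (hd : ((a.Bp : ℝ) - a.Bn) ^ 2 ≤ 4 * (a.A : ℝ) * a.C)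
    (hN : 0 < a.N T) : yR a T H ^ 2 ≤ 4 * eR a T H := by
  have hN' : (0 : ℝ) < a.N T := by exact_mod_cast hN
  have h1 : (2 * (a.A : ℝ) * T + ((a.Bp : ℝ) - a.Bn)) ^ 2 ≤ 4 * a.A * a.N T := by
    rw [N_real hd]
    nlinarith
  rw [yR, eR, div_pow, mul_pow, div_le_iff₀ (by positivity)]
  have h2 : 4 * ((H : ℝ) ^ 2 * a.A / a.N T) * (a.N T : ℝ) ^ 2 = (H : ℝ) ^ 2 * (4 * a.A * a.N T) := by
    field_simp
  rw [h2]
  exact mul_le_mul_of_nonneg_left h1 (sq_nonneg _)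

theorem g_bounds {a : Atom} {T H : ℕ} (hN : 0 < a.N T) (hy : |yR a T H| ≤ 1) :
    (a.g T H : ℝ) ≤ 4294967296 * yR a T H + 8589934592 ∧
      4294967296 * yR a T H + 8589934592 ≤ (a.g T H : ℝ) + 1 := by
  have hN' : (0 : ℝ) < a.N T := by exact_mod_cast hN
  obtain ⟨hyl, -⟩ := abs_le.1 hy
  have hHQ : (H : ℝ) * (2 * a.A * T + ((a.Bp : ℝ) - a.Bn)) = yR a T H * a.N T := by
    rw [yR]; field_simp
  have hgle : 4294967296 * (H * a.Bn) ≤
      4294967296 * (H * (2 * a.A * T + a.Bp)) + 8589934592 * a.N T := by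
    have h1 : ((4294967296 * (H * a.Bn) : ℕ) : ℝ) ≤
        ((4294967296 * (H * (2 * a.A * T + a.Bp)) + 8589934592 * a.N T : ℕ) : ℝ) := by
      push_cast
      have h3 : -(1 : ℝ) * a.N T ≤ yR a T H * a.N T := mul_le_mul_of_nonneg_right hyl hN'.le
      rw [← hHQ] at h3
      linarith
    exact_mod_cast h1
  obtain ⟨h1, h2⟩ := div_bounds (x := 4294967296 * (H * (2 * a.A * T + a.Bp)) +
    8589934592 * a.N T - 4294967296 * (H * a.Bn)) hN
  have h3 : ((4294967296 * (H * (2 * a.A * T + a.Bp)) +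
      8589934592 * a.N T - 4294967296 * (H * a.Bn) : ℕ) : ℝ) / (a.N T : ℝ) =
      4294967296 * yR a T H + 8589934592 := by
    rw [Nat.cast_sub hgle, div_eq_iff hN'.ne']
    push_cast
    have h4 : (4294967296 * yR a T H + 8589934592) * (a.N T : ℝ) =
        4294967296 * (yR a T H * a.N T) + 8589934592 * a.N T := by ring
    rw [h4, ← hHQ]; ring
  rw [h3] at h1 h2
  exact ⟨h1, h2⟩

/-- the square in fixed point -/
theorem h_bounds {a : Atom} {T H : ℕ} (hN : 0 < a.N T) (hy : |yR a T H| ≤ 1)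
    (he : eR a T H ≤ 1 / 4) :
    a.h T H < 2 ^ 40 ∧ |4294967296 * (eR a T H - yR a T H ^ 2 / 2) -
      ((a.h T H : ℝ) - 8589934592)| ≤ 4 := by
  obtain ⟨hg1, hg2⟩ := g_bounds hN hy
  obtain ⟨he1, he2⟩ := e_bounds (H := H) hN
  obtain ⟨hyl, hyu⟩ := abs_le.1 hy
  obtain ⟨g, hg⟩ : ∃ g : ℝ, g = (a.g T H : ℝ) - 8589934592 := ⟨_, rfl⟩
  obtain ⟨y, hyd⟩ : ∃ y : ℝ, y = yR a T H := ⟨_, rfl⟩
  have hgsq : 17179869184 * a.g T H ≤ a.g T H * a.g T H + 73786976294838206464 := by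
    have h1 : ((17179869184 * a.g T H : ℕ) : ℝ) ≤
        ((a.g T H * a.g T H + 73786976294838206464 : ℕ) : ℝ) := by
      push_cast
      have h2 : (0 : ℝ) ≤ ((a.g T H : ℝ) - 8589934592) ^ 2 := sq_nonneg _
      ring_nf at h2
      ring_nf
      linarith
    exact_mod_cast h1
  obtain ⟨h1, h2⟩ := div_bounds (x := a.g T H * a.g T H + 73786976294838206464 -
    17179869184 * a.g T H) (N := 2 ^ 33) (by positivity)
  have hu : ((a.g T H * a.g T H + 73786976294838206464 -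
      17179869184 * a.g T H : ℕ) : ℝ) = g ^ 2 := by
    rw [Nat.cast_sub hgsq, hg]
    push_cast
    ring
  rw [hu] at h1 h2
  obtain ⟨u, hud⟩ : ∃ u : ℕ, u = (a.g T H * a.g T H + 73786976294838206464 -
    17179869184 * a.g T H) / 2 ^ 33 := ⟨_, rfl⟩
  rw [← hud] at h1 h2
  push_cast at h1 h2
  rw [← hyd] at hyl hyu
  have hgy1 : g ≤ 4294967296 * y := by rw [hg, hyd]; linarith
  have hgy2 : 4294967296 * y - 1 ≤ g := by rw [hg, hyd]; linarith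
  have hsq1 : g ^ 2 ≤ (4294967296 * y) ^ 2 + 2 * 4294967296 + 1 := by nlinarith
  have hsq2 : (4294967296 * y) ^ 2 - 2 * 4294967296 ≤ g ^ 2 := by nlinarith
  have hy21 : y ^ 2 ≤ 1 := by nlinarith
  have hu1 : (u : ℝ) ≤ 2147483648 * y ^ 2 + 2 := by
    refine h1.trans ?_
    rw [div_le_iff₀ (by positivity)]
    nlinarith
  have hu2 : 2147483648 * y ^ 2 - 2 ≤ (u : ℝ) := by
    have h3 : 2147483648 * y ^ 2 - 1 ≤ g ^ 2 / 2 ^ 33 := by
      rw [le_div_iff₀ (by positivity)]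
      nlinarith
    linarith
  have hule : u ≤ a.e T H + 8589934592 := by
    have h3 : (u : ℝ) ≤ ((8589934592 : ℕ) : ℝ) := by push_cast; linarith
    have h4 : u ≤ 8589934592 := by exact_mod_cast h3
    omega
  have hhr : (a.h T H : ℝ) = a.e T H + 8589934592 - u := by
    have h3 : a.h T H = a.e T H + 8589934592 - u := by rw [hud]; rfl
    rw [h3, Nat.cast_sub hule]
    push_cast; ring
  constructor
  · have h3 : (a.h T H : ℝ) < ((2 ^ 40 : ℕ) : ℝ) := by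
      rw [hhr]
      have h4 : (0 : ℝ) ≤ u := Nat.cast_nonneg _
      norm_num
      linarith
    exact_mod_cast h3
  · rw [hhr, ← hyd, abs_le]
    constructor <;> linarith

/-- **one atom on one cell** -/
theorem atom_real {a : Atom} {T H E m : ℕ} {l : ℕ} (hok : StepOk T H E (a, l))
    (hd : ((a.Bp : ℝ) - a.Bn) ^ 2 ≤ 4 * (a.A : ℝ) * a.C)
    (hE : E = 4294967296 / ((m + 2) * (m + 2))) :
    a.g T H < 2 ^ 40 ∧ a.h T H < 2 ^ 40 ∧ ∀ t θ : ℝ, |θ| ≤ 1 → t = T + H * θ →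
      |4294967296 * Real.log (a.ev t) - ((l : ℝ) + ((a.g T H : ℝ) - 8589934592) * θ +
        ((a.h T H : ℝ) - 8589934592) * θ ^ 2)| ≤ 606 + 2 / (3 * ((m : ℝ) + 1)) * a.e T H := by
  obtain ⟨-, hN40, hlog, he⟩ := hok
  simp only at hN40 hlog he
  have hN : 0 < a.N T := lt_of_lt_of_le (by norm_num) hN40
  have hN' : (0 : ℝ) < a.N T := by exact_mod_cast hN
  have hNr := N_real (T := T) hd
  have hm0 : (0 : ℝ) ≤ m := Nat.cast_nonneg _
  have heM : eR a T H * ((m : ℝ) + 2) ^ 2 ≤ 1 := e_le_inv hN (hE ▸ he)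
  have he0 := eR_nonneg a T H
  have heq : eR a T H ≤ 1 / 4 := by
    have h4 : (4 : ℝ) ≤ ((m : ℝ) + 2) ^ 2 := by nlinarith
    have := mul_le_mul_of_nonneg_left h4 he0
    linarith
  have hy2 := yR_sq (H := H) hd hN
  have hy1 : |yR a T H| ≤ 1 := by
    rw [← sq_le_one_iff_abs_le_one]; linarith
  obtain ⟨hg1, hg2⟩ := g_bounds hN hy1
  obtain ⟨hh1, hh2⟩ := h_bounds hN hy1 heq
  obtain ⟨he1, he2⟩ := e_bounds (H := H) hN
  obtain ⟨hyl, hyu⟩ := abs_le.1 hy1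
  have hglt : a.g T H < 2 ^ 40 := by
    have h1 : (a.g T H : ℝ) < 1099511627776 := by linarith
    have h2 : a.g T H < 1099511627776 := by exact_mod_cast h1
    exact h2
  refine ⟨hglt, hh1, fun t θ hθ ht => ?_⟩
  obtain ⟨hθ1, hθ2⟩ := abs_le.1 hθ
  have hθsq : θ ^ 2 ≤ 1 := by rw [sq_le_one_iff_abs_le_one]; exact hθ
  obtain ⟨Y, hYd⟩ : ∃ Y : ℝ, Y = yR a T H := ⟨_, rfl⟩
  obtain ⟨F, hFd⟩ : ∃ F : ℝ, F = eR a T H := ⟨_, rfl⟩
  obtain ⟨g, hgd⟩ : ∃ g : ℝ, g = (a.g T H : ℝ) := ⟨_, rfl⟩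
  obtain ⟨h, hhd⟩ : ∃ h : ℝ, h = (a.h T H : ℝ) := ⟨_, rfl⟩
  obtain ⟨N, hNd⟩ : ∃ N : ℝ, N = (a.N T : ℝ) := ⟨_, rfl⟩
  have hfac : a.ev t = N * (1 + Y * θ + F * θ ^ 2) := by
    have h1 : N * (Y * θ) = H * (2 * a.A * T + ((a.Bp : ℝ) - a.Bn)) * θ := by
      rw [hYd, hNd, yR]; field_simp
    have h2 : N * (F * θ ^ 2) = (H : ℝ) ^ 2 * a.A * θ ^ 2 := by
      rw [hFd, hNd, eR]; field_simp
    rw [mul_add, mul_add, h1, h2, mul_one, hNd, hNr, Atom.ev, ht]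
    ring
  rw [← hYd] at hy2 hyl hyu hg1 hg2 hh2
  rw [← hFd] at he0 heM heq hy2 hh2 he1 he2
  rw [← hgd] at hg1 hg2 ⊢
  rw [← hhd] at hh2 ⊢
  rw [← hNd] at hN' hlog
  have hF2 : F * θ ^ 2 ≤ F := mul_le_of_le_one_right he0 hθsq
  have hF0 : 0 ≤ F * θ ^ 2 := mul_nonneg he0 (sq_nonneg _)
  have hye : (Y * θ) ^ 2 ≤ 4 * (F * θ ^ 2) := by
    rw [mul_pow]
    have := mul_le_mul_of_nonneg_right hy2 (sq_nonneg θ)
    linarith
  have heM' : F * θ ^ 2 * ((m : ℝ) + 2) ^ 2 ≤ 1 :=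
    (mul_le_mul_of_nonneg_right hF2 (sq_nonneg _)).trans heM
  have htay := log_one_add_second (M := (m : ℝ) + 2) (by linarith) hye heM'
  have hpos1 : 0 < 1 + Y * θ + F * θ ^ 2 := by
    have h1 : |Y * θ| < 1 + F * θ ^ 2 := by
      have h2 : |Y * θ| ^ 2 < (1 + F * θ ^ 2) ^ 2 := by
        rw [sq_abs]
        nlinarith
      exact lt_of_pow_lt_pow_left₀ 2 (by linarith) h2
    have := neg_abs_le (Y * θ)
    linarith
  have hlogev : Real.log (a.ev t) = Real.log N + Real.log (1 + Y * θ + F * θ ^ 2) := by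
    rw [hfac, Real.log_mul hN'.ne' hpos1.ne']
  rw [hlogev]
  have hm1 : (m : ℝ) + 2 - 1 = m + 1 := by ring
  rw [hm1] at htay
  have hc0 : (0 : ℝ) ≤ 2 / (3 * ((m : ℝ) + 1)) := by positivity
  have hT3 : 4294967296 * |Real.log (1 + Y * θ + F * θ ^ 2) -
      (Y * θ + F * θ ^ 2 - (Y * θ) ^ 2 / 2)| ≤ 2 / (3 * ((m : ℝ) + 1)) * a.e T H := by
    have h1 : 2 / (3 * ((m : ℝ) + 1)) * (F * θ ^ 2) ≤ 2 / (3 * ((m : ℝ) + 1)) * F :=
      mul_le_mul_of_nonneg_left hF2 hc0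
    have h2 : 2 / (3 * ((m : ℝ) + 1)) * (4294967296 * F) ≤ 2 / (3 * ((m : ℝ) + 1)) * a.e T H :=
      mul_le_mul_of_nonneg_left he1 hc0
    linarith
  have hT1 : |(4294967296 * Y - (g - 8589934592)) * θ| ≤ 1 := by
    rw [abs_mul]
    have h1 : |4294967296 * Y - (g - 8589934592)| ≤ 1 := by
      rw [abs_le]; constructor <;> linarith
    exact mul_le_one₀ h1 (abs_nonneg _) hθ
  have hT2 : |(4294967296 * (F - Y ^ 2 / 2) - (h - 8589934592)) * θ ^ 2| ≤ 4 := by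
    rw [abs_mul, abs_of_nonneg (sq_nonneg θ)]
    exact (mul_le_of_le_one_right (abs_nonneg _) hθsq).trans hh2
  have hT0 : |4294967296 * Real.log N - (l : ℝ)| ≤ 600 := by
    rw [abs_sub_comm]
    have h32 : (2 : ℝ) ^ 32 = 4294967296 := by norm_num
    rw [← h32]; exact hlog
  have hsplit : 4294967296 * (Real.log N + Real.log (1 + Y * θ + F * θ ^ 2)) -
      ((l : ℝ) + (g - 8589934592) * θ + (h - 8589934592) * θ ^ 2) =
      (4294967296 * Real.log N - (l : ℝ)) +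
      (4294967296 * (Real.log (1 + Y * θ + F * θ ^ 2) -
        (Y * θ + F * θ ^ 2 - (Y * θ) ^ 2 / 2))) +
      ((4294967296 * Y - (g - 8589934592)) * θ) +
      ((4294967296 * (F - Y ^ 2 / 2) - (h - 8589934592)) * θ ^ 2) := by
    ring
  rw [hsplit]
  refine (abs_add_le _ _).trans ?_
  have h1 := abs_add_le (4294967296 * Real.log N - (l : ℝ) +
      (4294967296 * (Real.log (1 + Y * θ + F * θ ^ 2) -
        (Y * θ + F * θ ^ 2 - (Y * θ) ^ 2 / 2))))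
      ((4294967296 * Y - (g - 8589934592)) * θ)
  have h2 := abs_add_le (4294967296 * Real.log N - (l : ℝ))
      (4294967296 * (Real.log (1 + Y * θ + F * θ ^ 2) -
        (Y * θ + F * θ ^ 2 - (Y * θ) ^ 2 / 2)))
  rw [abs_mul 4294967296, abs_of_nonneg (by norm_num : (0 : ℝ) ≤ 4294967296)] at h2
  linarith

end Vale.Agent.P030.H532
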